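import Vale.Agent.P181.R2.H182.VDefs
import Vale.Agent.P181.R2.H188.W2

/-!
P181, row V2: degrees of the polarised substitution.
-/

set_option autoImplicit false

namespace Vale.Agent.P181.VT

open Vale.Agent.P181 Vale.Agent.P181.H280 Vale.Agent.P181.FR MvPolynomial

namespace V2H280

open Vale.Agent.P181.H188W

lemma exists_f {m : ℕ} : ∀ (c : ℕ) (s : Fin m → ℕ), ∑ i, s i = c →
    ∃ f : Fin c → Fin m, ∀ v : Fin m → ℂ, ∏ i, v i ^ s i = ∏ t, v (f t)
  | 0, s, h => ⟨Fin.elim0, fun v => by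
      have h1 : ∀ i, s i = 0 := fun i => (Finset.sum_eq_zero_iff.1 h) i (Finset.mem_univ i)
      simp [h1]⟩
  | c + 1, s, h => by
    obtain ⟨i0, hi⟩ : ∃ i, 0 < s i := by
      by_contra hcon
      push Not at hcon
      have : ∑ i, s i = 0 := Finset.sum_eq_zero (fun i _ => by have := hcon i; omega)
      omega
    have hsum : ∑ i, Function.update s i0 (s i0 - 1) i = c := by
      have h1 := Finset.add_sum_erase Finset.univ s (Finset.mem_univ i0)
      have h2 := Finset.add_sum_erase Finset.univ (Function.update s i0 (s i0 - 1))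
        (Finset.mem_univ i0)
      have h3 : ∑ i ∈ Finset.univ.erase i0, Function.update s i0 (s i0 - 1) i =
          ∑ i ∈ Finset.univ.erase i0, s i := Finset.sum_congr rfl (fun i hi => by
        rw [Function.update_of_ne (Finset.ne_of_mem_erase hi)])
      rw [Function.update_self, h3] at h2
      omega
    obtain ⟨f, hf⟩ := exists_f c _ hsum
    refine ⟨Fin.cons i0 f, fun v => ?_⟩
    rw [Fin.prod_univ_succ]
    simp only [Fin.cons_zero, Fin.cons_succ]
    rw [← hf v, ← Finset.mul_prod_erase Finset.univ (fun i => v i ^ s i) (Finset.mem_univ i0),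
      ← Finset.mul_prod_erase Finset.univ
        (fun i => v i ^ Function.update s i0 (s i0 - 1) i) (Finset.mem_univ i0)]
    rw [Function.update_self, ← mul_assoc, ← pow_succ', Nat.sub_add_cancel hi]
    congr 1
    apply Finset.prod_congr rfl
    intro i hi
    rw [Function.update_of_ne (Finset.ne_of_mem_erase hi)]

/-- the monomial function -/
def mo {B m c : ℕ} (f : Fin B → Fin c → Fin m) (p : Fin B → Fin m → ℂ) : ℂ := ∏ j, ∏ t, p j (f j t)

lemma MP_le {B r c : ℕ} :
    MP B (r + 1) c ≤ Submodule.span ℂ (Set.range (mo (B := B) (m := r + 1) (c := c))) := by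
  classical
  rw [MP, Submodule.span_le]
  rintro G ⟨q, hq, rfl⟩
  have h1 : ∀ j (p : Fin (r + 1) → ℂ), eval p (q j) =
      ∑ s ∈ (q j).support, coeff s (q j) * ∏ i, p i ^ s i := fun j p => MvPolynomial.eval_eq' p (q j)
  have h2 : ∀ j, ∀ s ∈ (q j).support, ∃ f : Fin c → Fin (r + 1),
      ∀ v : Fin (r + 1) → ℂ, ∏ i, v i ^ s i = ∏ t, v (f t) := by
    intro j s hs
    apply exists_f
    have h3 := hq j (mem_support_iff.1 hs)
    rw [← h3, Finsupp.weight_apply, Finsupp.sum_fintype _ _ (fun i => by simp)]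
    simp
  choose! f hf using h2
  have h3 : (fun p : Fin B → Fin (r + 1) → ℂ => ∏ j, eval (p j) (q j)) =
      ∑ x ∈ Fintype.piFinset (fun j => (q j).support),
        (∏ j, coeff (x j) (q j)) • mo (fun j => f j (x j)) := by
    funext p
    rw [Finset.sum_apply]
    simp only [h1, Pi.smul_apply, smul_eq_mul]
    rw [Finset.prod_univ_sum]
    apply Finset.sum_congr rfl
    intro x hx
    rw [Finset.prod_mul_distrib]
    congr 1
    apply Finset.prod_congr rfl
    intro j _
    exact hf j (x j) (Fintype.mem_piFinset.1 hx j) _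
  rw [h3]
  exact Submodule.sum_mem _ (fun x _ => Submodule.smul_mem _ _ (Submodule.subset_span ⟨_, rfl⟩))

/-- one factor -/
noncomputable def E {r k : ℕ} (H : Matrix (Fin (r + 1)) (Fin (r + 1)) ℂ) (j : Fin (k * nn r))
    (l : Fin (r + 1)) (β : Fin k) (p : Fin (k * nn r) → Fin (r + 1) → ℂ) : ℂ :=
  Matrix.vecMul (p j) (Yb (pt p β) * H) l

/-- the degree of a block -/
def bl {r k : ℕ} (β : Fin k) : Fin (k * nn r) → ℕ :=
  ∑ s : Fin (nn r), Pi.single (finProdFinEquiv (β, s)) 1

lemma vecMul_adj {m : ℕ} (A : Matrix (Fin m) (Fin m) ℂ) (v : Fin m → ℂ) (i : Fin m) :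
    Matrix.vecMul v A.adjugate i = (A.updateRow i v).det := by
  rw [← Matrix.cramer_transpose_apply, Matrix.cramer_eq_adjugate_mulVec,
    ← Matrix.adjugate_transpose, Matrix.mulVec_transpose]

lemma E_mem {r k : ℕ} (H : Matrix (Fin (r + 1)) (Fin (r + 1)) ℂ) (j : Fin (k * nn r))
    (l : Fin (r + 1)) (β : Fin k) : E H j l β ∈ MPd (k * nn r) (r + 1) (Pi.single j 1 + bl β) := by
  classical
  let e1 : Fin (r + 1) → Fin (r + 1) → Fin (k * nn r) := fun i =>
    Function.update (fun i' => finProdFinEquiv (β, Fin.castAdd _ i')) i j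
  let e2 : Fin (r + 1) → Fin (r + 1) → Fin (k * nn r) := fun i =>
    Fin.cons (finProdFinEquiv (β, Fin.castAdd _ i))
      (fun u : Fin r => finProdFinEquiv (β, Fin.natAdd (r + 1) (Fin.castAdd (r + 1) u)))
  let e3 : Fin (r + 1) → Fin (k * nn r) := fun v =>
    finProdFinEquiv (β, Fin.natAdd (r + 1) (Fin.natAdd r v))
  have hE : E H j l β = ∑ i, H i l • (dt le_rfl (e1 i) * (dt le_rfl (e2 i) * dt le_rfl e3)) := by
    funext p
    rw [Finset.sum_apply]
    unfold E
    rw [← Matrix.vecMul_vecMul]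
    change ∑ i, Matrix.vecMul (p j) (Yb (pt p β)) i * H i l = _
    apply Finset.sum_congr rfl
    intro i _
    rw [Pi.smul_apply, smul_eq_mul, mul_comm]
    congr 1
    unfold Yb
    rw [← Matrix.vecMul_vecMul, Matrix.vecMul_diagonal, vecMul_adj]
    have h1 : ((WA (pt p β)).updateRow i (p j)).det = dt le_rfl (e1 i) p := by
      unfold dt
      congr 1
      ext x y
      rw [Matrix.updateRow_apply, Matrix.of_apply]
      by_cases hx : x = i
      · subst hx
        simp [e1]
      · rw [if_neg hx]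
        simp only [e1, Function.update_of_ne hx]
        rfl
    have h2 : (WB (pt p β) i).det = dt le_rfl (e2 i) p := by
      unfold dt
      congr 1
      ext x y
      rw [Matrix.of_apply]
      refine Fin.cases ?_ (fun u => ?_) x
      · rfl
      · rfl
    have h3 : (WC (pt p β)).det = dt le_rfl e3 p := rfl
    rw [h1, h2, h3]
    rfl
  rw [hE]
  apply Submodule.sum_mem
  intro i _
  apply Submodule.smul_mem
  have hd : (Pi.single j 1 + bl β : Fin (k * nn r) → ℕ) =
      (∑ x, Pi.single (e1 i x) 1) + ((∑ x, Pi.single (e2 i x) 1) + ∑ x, Pi.single (e3 x) 1) := by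
    have h1 : (∑ x, Pi.single (e1 i x) 1 : Fin (k * nn r) → ℕ) =
        Pi.single j 1 + ∑ x ∈ Finset.univ.erase i,
          Pi.single (finProdFinEquiv (β, Fin.castAdd (r + (r + 1)) x)) 1 := by
      rw [← Finset.add_sum_erase Finset.univ _ (Finset.mem_univ i)]
      congr 1
      · simp [e1]
      · apply Finset.sum_congr rfl
        intro x hx
        simp only [e1, Function.update_of_ne (Finset.ne_of_mem_erase hx)]
    have h2 : (∑ x, Pi.single (e2 i x) 1 : Fin (k * nn r) → ℕ) =
        Pi.single (finProdFinEquiv (β, Fin.castAdd (r + (r + 1)) i)) 1 +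
          ∑ u : Fin r, Pi.single
            (finProdFinEquiv (β, Fin.natAdd (r + 1) (Fin.castAdd (r + 1) u))) 1 := by
      rw [Fin.sum_univ_succ]
      rfl
    have h3 : (bl β : Fin (k * nn r) → ℕ) =
        (∑ x, Pi.single (finProdFinEquiv (β, Fin.castAdd (r + (r + 1)) x)) 1) +
          ((∑ u : Fin r, Pi.single
            (finProdFinEquiv (β, Fin.natAdd (r + 1) (Fin.castAdd (r + 1) u))) 1) +
            ∑ x, Pi.single (e3 x) 1) := by
      unfold bl
      rw [Fin.sum_univ_add]
      congr 1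
      rw [Fin.sum_univ_add]
    have h4 := Finset.add_sum_erase Finset.univ (fun x : Fin (r + 1) =>
      (Pi.single (finProdFinEquiv (β, Fin.castAdd (r + (r + 1)) x)) 1 : Fin (k * nn r) → ℕ))
      (Finset.mem_univ i)
    rw [h1, h2, h3, ← h4]
    abel
  rw [hd]
  exact MPd_mul (dt_MPd _ _) (MPd_mul (dt_MPd _ _) (dt_MPd _ _))

lemma bl_apply {r k : ℕ} (β : Fin k) (x : Fin (k * nn r)) :
    bl β x = if β = (finProdFinEquiv.symm x).1 then 1 else 0 := by
  classical
  unfold bl
  rw [Finset.sum_apply]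
  have h1 : ∀ s : Fin (nn r), (Pi.single (finProdFinEquiv (β, s)) 1 : Fin (k * nn r) → ℕ) x =
      if β = (finProdFinEquiv.symm x).1 ∧ s = (finProdFinEquiv.symm x).2 then 1 else 0 := by
    intro s
    rw [Pi.single_apply]
    congr 1
    rw [← Equiv.symm_apply_eq, Prod.ext_iff]
    exact propext ⟨fun h => ⟨h.1.symm, h.2.symm⟩, fun h => ⟨h.1.symm, h.2.symm⟩⟩
  rw [Finset.sum_congr rfl (fun s _ => h1 s)]
  by_cases hβ : β = (finProdFinEquiv.symm x).1
  · rw [if_pos hβ, Finset.sum_eq_single (finProdFinEquiv.symm x).2]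
    · rw [if_pos ⟨hβ, rfl⟩]
    · intro s _ hs
      rw [if_neg (fun h => hs h.2)]
    · intro h
      exact absurd (Finset.mem_univ _) h
  · rw [if_neg hβ]
    exact Finset.sum_eq_zero (fun s _ => if_neg (fun h => hβ h.1))

lemma YY_vec {r k : ℕ} (t : Fin k → ℂ) (p : Fin (k * nn r) → Fin (r + 1) → ℂ)
    (H : Matrix (Fin (r + 1)) (Fin (r + 1)) ℂ) (j : Fin (k * nn r)) (l : Fin (r + 1)) :
    Matrix.vecMul (p j) (YY t p * H) l = ∑ β, t β * E H j l β p := by
  have h1 : YY t p * H = ∑ β, t β • (Yb (pt p β) * H) := by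
    unfold YY
    rw [Finset.sum_mul]
    exact Finset.sum_congr rfl (fun β _ => Matrix.smul_mul _ _ _)
  rw [h1]
  unfold E
  simp only [Matrix.vecMul, dotProduct, Matrix.sum_apply, Matrix.smul_apply, smul_eq_mul,
    Finset.mul_sum]
  rw [Finset.sum_comm]
  apply Finset.sum_congr rfl
  intro β _
  apply Finset.sum_congr rfl
  intro i _
  ring

/-- the counts -/
def cnt {B c k : ℕ} (φ : Fin B × Fin c → Fin k) (β : Fin k) : ℕ :=
  (Finset.univ.filter (fun u => φ u = β)).card

lemma prod_cnt {B c k : ℕ} (φ : Fin B × Fin c → Fin k) (t : Fin k → ℂ) :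
    ∏ u, t (φ u) = ∏ β, t β ^ cnt φ β := by
  classical
  rw [← Finset.prod_fiberwise' Finset.univ φ t]
  apply Finset.prod_congr rfl
  intro β _
  rw [Finset.prod_const]
  rfl

lemma sum_cnt {B c k : ℕ} (φ : Fin B × Fin c → Fin k) : ∑ β, cnt φ β = B * c := by
  classical
  have h := Finset.card_eq_sum_card_fiberwise (s := (Finset.univ : Finset (Fin B × Fin c)))
    (t := Finset.univ) (f := φ) (fun _ _ => Finset.mem_univ _)
  rw [Finset.card_univ, Fintype.card_prod, Fintype.card_fin, Fintype.card_fin] at h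
  exact h.symm

lemma TH_mo {r k c N : ℕ} (τ : Fin N → Fin k → ℂ) (α : Fin N → ℂ) (hP : Polar k (nn r * c) τ α)
    (H : Matrix (Fin (r + 1)) (Fin (r + 1)) ℂ) (f : Fin (k * nn r) → Fin c → Fin (r + 1)) :
    TH τ α H (mo f) = ∑ φ : Fin (k * nn r) × Fin c → Fin k,
      (if cnt φ = fun _ => nn r * c then (1 : ℂ) else 0) • ∏ u, E H u.1 (f u.1 u.2) (φ u) := by
  classical
  funext p
  rw [Finset.sum_apply]
  have h1 : ∀ i, mo f (fun j => Matrix.vecMul (p j) (YY (τ i) p * H)) =
      ∑ φ : Fin (k * nn r) × Fin c → Fin k,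
        (∏ β, τ i β ^ cnt φ β) * ∏ u, E H u.1 (f u.1 u.2) (φ u) p := by
    intro i
    unfold mo
    rw [← Fintype.prod_prod_type' (f := fun (j : Fin (k * nn r)) (t : Fin c) =>
      Matrix.vecMul (p j) (YY (τ i) p * H) (f j t))]
    rw [Finset.prod_congr rfl (fun u _ => YY_vec (τ i) p H u.1 (f u.1 u.2))]
    rw [Finset.prod_univ_sum, Fintype.piFinset_univ]
    apply Finset.sum_congr rfl
    intro φ _
    rw [Finset.prod_mul_distrib, prod_cnt]
  unfold TH
  rw [Finset.sum_congr rfl (fun i _ => by rw [h1 i, Finset.mul_sum])]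
  rw [Finset.sum_comm]
  apply Finset.sum_congr rfl
  intro φ _
  rw [Pi.smul_apply, smul_eq_mul, Finset.prod_apply]
  have h2 := hP (cnt φ) (by rw [sum_cnt, mul_assoc])
  rw [← h2, Finset.sum_mul]
  apply Finset.sum_congr rfl
  intro i _
  ring

lemma TH_mo_mem {r k c N : ℕ} (τ : Fin N → Fin k → ℂ) (α : Fin N → ℂ)
    (hP : Polar k (nn r * c) τ α)
    (H : Matrix (Fin (r + 1)) (Fin (r + 1)) ℂ) (f : Fin (k * nn r) → Fin c → Fin (r + 1)) :
    TH τ α H (mo f) ∈ MP (k * nn r) (r + 1) (3 * (r + 1) * c) := by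
  classical
  rw [TH_mo τ α hP H f]
  apply Submodule.sum_mem
  intro φ _
  by_cases hφ : cnt φ = fun _ => nn r * c
  swap
  · rw [if_neg hφ, zero_smul]
    exact Submodule.zero_mem _
  rw [if_pos hφ, one_smul]
  have h1 := MPd_prod (Finset.univ : Finset (Fin (k * nn r) × Fin c))
    (fun u => (Pi.single u.1 1 + bl (φ u) : Fin (k * nn r) → ℕ))
    (fun u => E H u.1 (f u.1 u.2) (φ u)) (fun u _ => E_mem H u.1 (f u.1 u.2) (φ u))
  have h2 : (∑ u : Fin (k * nn r) × Fin c, (Pi.single u.1 1 + bl (φ u) : Fin (k * nn r) → ℕ)) =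
      fun _ => 3 * (r + 1) * c := by
    funext x
    rw [Finset.sum_apply]
    simp only [Pi.add_apply]
    rw [Finset.sum_add_distrib]
    have h3 : ∑ u : Fin (k * nn r) × Fin c, (Pi.single u.1 1 : Fin (k * nn r) → ℕ) x = c := by
      rw [Fintype.sum_prod_type]
      simp only [Finset.sum_const, Finset.card_univ, Fintype.card_fin, smul_eq_mul]
      rw [← Finset.mul_sum]
      simp [Pi.single_apply]
    have h4 : ∑ u : Fin (k * nn r) × Fin c, bl (φ u) x = nn r * c := by
      simp only [bl_apply]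
      rw [← Finset.card_filter]
      exact congrFun hφ _
    rw [h3, h4]
    change c + ((r + 1) + (r + (r + 1))) * c = _
    ring
  rw [h2] at h1
  exact h1

end V2H280

open V2H280 in
/-- **Row V2**: degrees. -/
theorem v2 {r k c N : ℕ} (τ : Fin N → Fin k → ℂ) (α : Fin N → ℂ)
    (hP : Polar k (nn r * c) τ α) (H : Matrix (Fin (r + 1)) (Fin (r + 1)) ℂ)
    (F : (Fin (k * nn r) → Fin (r + 1) → ℂ) → ℂ) (hF : F ∈ MP (k * nn r) (r + 1) c) :
    TH τ α H F ∈ MP (k * nn r) (r + 1) (3 * (r + 1) * c) := by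
  have h := MP_le hF
  clear hF
  induction h using Submodule.span_induction with
  | mem F h =>
    obtain ⟨f, rfl⟩ := h
    exact TH_mo_mem τ α hP H f
  | zero =>
    have h0 : TH τ α H (0 : (Fin (k * nn r) → Fin (r + 1) → ℂ) → ℂ) = 0 := by
      funext p
      simp [TH]
    rw [h0]
    exact Submodule.zero_mem _
  | add F G _ _ h1 h2 =>
    have h0 : TH τ α H (F + G) = TH τ α H F + TH τ α H G := by
      funext p
      simp [TH, mul_add, Finset.sum_add_distrib]
    rw [h0]
    exact Submodule.add_mem _ h1 h2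
  | smul x F _ h1 =>
    have h0 : TH τ α H (x • F) = x • TH τ α H F := by
      funext p
      simp only [TH, Pi.smul_apply, smul_eq_mul, Finset.mul_sum]
      apply Finset.sum_congr rfl
      intro i _
      ring
    rw [h0]
    exact Submodule.smul_mem _ _ h1

end Vale.Agent.P181.VT
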