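import Vale.Agent.P181.H536.HW

/-!
P181, all numbers of rows: forms in the variables `X 0`, `X 1` and `n` further variables.
-/

set_option autoImplicit false

open MvPolynomial

namespace Vale.Agent.P181.TN

open Vale.Agent.P181 Vale.Agent.P181.H536 Vale.Agent.P181.H280

/-- Polynomials in `n + 2` variables. -/
abbrev Sn (n : ℕ) : Type := MvPolynomial (Fin (n + 2)) ℂ

/-- Multilinear forms in `a` polynomials. -/
abbrev Fm (n a : ℕ) : Type := MultilinearMap ℂ (fun _ : Fin a => Sn n) ℂ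

/-- The space spanned by the first two variables. -/
noncomputable def U2 (n : ℕ) : Submodule ℂ (Sn n) := Submodule.span ℂ {X 0, X 1}

/-- The linear form `X 0 + x * X 1`. -/
noncomputable def ln (n : ℕ) (x : ℂ) : Sn n := X 0 + x • X 1

/-- The shear `X 0 ↦ X 0 + z`. -/
noncomputable abbrev sh (n : ℕ) (z : Sn n) : Sn n →ₐ[ℂ] Sn n := shr n z 0

/-- All arguments are forms of degree `d`. -/
def Dg (d : ℕ) {n a : ℕ} (P : Fin a → Sn n) : Prop := ∀ i, P i ∈ linS (n + 2) ^ d

/-- The form vanishes in degree `b`. -/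
def Van (b : ℕ) {n a : ℕ} (F : Fm n a) : Prop := ∀ P : Fin a → Sn n, Dg b P → F P = 0

/-- Invariance under the shears `X 0 ↦ X 0 + z` in degree `b`. -/
def Inv (b : ℕ) {n a : ℕ} (F : Fm n a) : Prop :=
  ∀ z ∈ ZZ n, ∀ P : Fin a → Sn n, Dg b P → F (fun i => sh n z (P i)) = F P

/-- In degree `b` the form is homogeneous of weight `t` for the scaling of the last variables. -/
def Hom (b t : ℕ) {n a : ℕ} (F : Fm n a) : Prop :=
  ∀ c : ℂ, c ≠ 0 → ∀ P : Fin a → Sn n, Dg b P → F (fun i => scal n c (P i)) = c ^ t * F P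

/-- `F ((ξ + c z) h_1, …, (ξ + c z) h_a)` has degree less than `s` in `c`, for every line
`ξ = X 0 + x X 1`, every `z` in the span of the last variables, and all forms `h_i` of degree
`b - 1`. -/
def QQ (s b : ℕ) {n a : ℕ} (F : Fm n a) : Prop :=
  ∀ x : ℂ, ∀ z ∈ ZZ n, ∀ h : Fin a → Sn n, Dg (b - 1) h →
    ∃ p : Polynomial ℂ, p.degree < (s : WithBot ℕ) ∧
      ∀ c : ℂ, p.eval c = F (fun i => (ln n x + c • z) * h i)

/-- The forms vanish as soon as one argument has order more than `k` in the last variables. -/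
def Top (b k : ℕ) {n m : ℕ} (F : Fm n (m + 1)) : Prop :=
  ∀ j, k < j → j ≤ b → ∀ w ∈ ZZ n ^ j, ∀ A ∈ U2 n ^ (b - j), Van b (F.curryLeft (w * A))

/-- The statement `K(a, b, t)`: no nonzero shear invariant form of weight `t` in the kernel. -/
def KK (n a b t : ℕ) : Prop :=
  ∀ F : Fm n a, IsSymm F → Inv b F → Hom b t F → IsK (linS (n + 2)) b F → Van b F

variable {n : ℕ}

lemma U2_le : U2 n ≤ linS (n + 2) := by
  rw [U2, Submodule.span_le]
  rintro _ (rfl | rfl)
  · exact X_mem_linS _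
  · exact X_mem_linS _

lemma ZZ_le : ZZ n ≤ linS (n + 2) := by
  rw [ZZ, Submodule.span_le]
  rintro _ ⟨i, rfl⟩
  exact X_mem_linS _

lemma linS_eq : linS (n + 2) = U2 n ⊔ ZZ n := (sup_eq n).symm

lemma ln_mem_U2 (x : ℂ) : ln n x ∈ U2 n :=
  (U2 n).add_mem (Submodule.subset_span (by simp))
    ((U2 n).smul_mem _ (Submodule.subset_span (by simp)))

lemma ln_mem (x : ℂ) : ln n x ∈ linS (n + 2) := U2_le (ln_mem_U2 x)

lemma line_mem {z : Sn n} (hz : z ∈ ZZ n) (x : ℂ) : ln n x + z ∈ linS (n + 2) :=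
  (linS (n + 2)).add_mem (ln_mem x) (ZZ_le hz)

lemma wA_mem {b k : ℕ} (hk : k ≤ b) {w A : Sn n} (hw : w ∈ ZZ n ^ k) (hA : A ∈ U2 n ^ (b - k)) :
    w * A ∈ linS (n + 2) ^ b := by
  have h1 : linS (n + 2) ^ b = linS (n + 2) ^ k * linS (n + 2) ^ (b - k) := by
    rw [← pow_add]; congr 1; omega
  rw [h1]
  exact Submodule.mul_mem_mul (pow_le_pow_left' ZZ_le _ hw) (pow_le_pow_left' U2_le _ hA)

lemma Dg_mul {b : ℕ} (hb : 1 ≤ b) {a : ℕ} {h : Fin a → Sn n} (hh : Dg (b - 1) h) {l : Sn n}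
    (hl : l ∈ linS (n + 2)) : Dg b (fun i => l * h i) := by
  intro i
  have h1 : linS (n + 2) ^ b = linS (n + 2) * linS (n + 2) ^ (b - 1) := by
    rw [← pow_succ']; congr 1; omega
  rw [h1]
  exact Submodule.mul_mem_mul hl (hh i)

lemma sh_Z {z z' : Sn n} (hz' : z' ∈ ZZ n) : sh n z z' = z' := by
  rw [ZZ] at hz'
  induction hz' using Submodule.span_induction with
  | mem x hx =>
    obtain ⟨i, rfl⟩ := hx
    exact shr_succ z 0 i
  | zero => rw [map_zero]
  | add x y _ _ hx hy => rw [map_add, hx, hy]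
  | smul c x _ hx => rw [map_smul, hx]

lemma sh_ZZ_pow {z : Sn n} {k : ℕ} {w : Sn n} (hw : w ∈ ZZ n ^ k) : sh n z w = w := by
  induction k generalizing w with
  | zero =>
    rw [pow_zero, Submodule.mem_one] at hw
    obtain ⟨r, rfl⟩ := hw
    exact AlgHom.commutes _ _
  | succ k ih =>
    rw [pow_succ] at hw
    induction hw using Submodule.mul_induction_on' with
    | mem_mul_mem x hx y hy => rw [map_mul, ih hx, sh_Z hy]
    | add x _ y _ hx hy => rw [map_add, hx, hy]

lemma sh_X0 (z : Sn n) : sh n z (X 0) = X 0 + z := shr_zero z 0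

lemma sh_X1 (z : Sn n) : sh n z (X 1) = X 1 := by rw [sh, shr_one, add_zero]

lemma sh_ln (z : Sn n) (x : ℂ) : sh n z (ln n x) = ln n x + z := by
  rw [ln, map_add, map_smul, sh_X0, sh_X1]
  abel

lemma scal_Z {z : Sn n} (hz : z ∈ ZZ n) (c : ℂ) : scal n c z = c • z := by
  rw [ZZ] at hz
  induction hz using Submodule.span_induction with
  | mem x hx =>
    obtain ⟨i, rfl⟩ := hx
    exact scal_succ c i
  | zero => rw [map_zero, smul_zero]
  | add x y _ _ hx hy => rw [map_add, hx, hy, smul_add]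
  | smul r x _ hx => rw [map_smul, hx, smul_comm]

lemma scal_ZZ_pow {k : ℕ} {w : Sn n} (hw : w ∈ ZZ n ^ k) (c : ℂ) : scal n c w = c ^ k • w := by
  induction k generalizing w with
  | zero =>
    rw [pow_zero, Submodule.mem_one] at hw
    obtain ⟨r, rfl⟩ := hw
    rw [pow_zero, one_smul]
    exact AlgHom.commutes _ _
  | succ k ih =>
    rw [pow_succ] at hw
    induction hw using Submodule.mul_induction_on' with
    | mem_mul_mem x hx y hy =>
      rw [map_mul, ih hx, scal_Z hy, smul_mul_assoc, mul_smul_comm, smul_smul, pow_succ]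
    | add x _ y _ hx hy => rw [map_add, hx, hy, smul_add]

lemma scal_U {u : Sn n} (hu : u ∈ U2 n) (c : ℂ) : scal n c u = u := by
  obtain ⟨α, β, rfl⟩ := Submodule.mem_span_pair.1 hu
  rw [map_add, map_smul, map_smul, scal_zero, scal_one]

lemma scal_U2 {d : ℕ} (c : ℂ) {A : Sn n} (hA : A ∈ U2 n ^ d) : scal n c A = A := by
  induction d generalizing A with
  | zero =>
    rw [pow_zero, Submodule.mem_one] at hA
    obtain ⟨r, rfl⟩ := hA
    exact AlgHom.commutes _ _
  | succ d ih =>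
    rw [pow_succ] at hA
    induction hA using Submodule.mul_induction_on' with
    | mem_mul_mem x hx y hy => rw [map_mul, ih hx, scal_U hy]
    | add x _ y _ hx hy => rw [map_add, hx, hy]

lemma scal_ln (c : ℂ) (x : ℂ) : scal n c (ln n x) = ln n x := scal_U (ln_mem_U2 x) c

lemma scal_mem {d : ℕ} (c : ℂ) {P : Sn n} (hP : P ∈ linS (n + 2) ^ d) :
    scal n c P ∈ linS (n + 2) ^ d := by
  have h1 : (linS (n + 2) ^ d).map (scal n c).toLinearMap ≤ linS (n + 2) ^ d := by
    rw [Submodule.map_pow]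
    apply pow_le_pow_left'
    rw [linS_eq, Submodule.map_sup, sup_le_iff]
    constructor
    · rintro _ ⟨u, hu, rfl⟩
      change scal n c u ∈ _
      rw [scal_U hu]
      exact Submodule.mem_sup_left hu
    · rintro _ ⟨z, hz, rfl⟩
      change scal n c z ∈ _
      rw [scal_Z hz]
      exact Submodule.mem_sup_right ((ZZ n).smul_mem _ hz)
  exact h1 ⟨P, hP, rfl⟩

lemma sh_U_sub {z : Sn n} (hz : z ∈ ZZ n) {u : Sn n} (hu : u ∈ U2 n) : sh n z u - u ∈ ZZ n := by
  obtain ⟨α, β, rfl⟩ := Submodule.mem_span_pair.1 hu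
  rw [map_add, map_smul, map_smul, sh_X0, sh_X1]
  have h1 : α • ((X 0 : Sn n) + z) + β • X 1 - (α • X 0 + β • X 1) = α • z := by
    rw [smul_add]; abel
  rw [h1]
  exact (ZZ n).smul_mem _ hz

lemma sh_mem {d : ℕ} {z : Sn n} (hz : z ∈ ZZ n) {P : Sn n} (hP : P ∈ linS (n + 2) ^ d) :
    sh n z P ∈ linS (n + 2) ^ d := by
  have h1 : (linS (n + 2) ^ d).map (sh n z).toLinearMap ≤ linS (n + 2) ^ d := by
    rw [Submodule.map_pow]
    apply pow_le_pow_left'
    rw [linS_eq, Submodule.map_sup, sup_le_iff]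
    constructor
    · rintro _ ⟨u, hu, rfl⟩
      change sh n z u ∈ _
      have h2 : sh n z u = u + (sh n z u - u) := by abel
      rw [h2]
      exact Submodule.add_mem _ (Submodule.mem_sup_left hu)
        (Submodule.mem_sup_right (sh_U_sub hz hu))
    · rintro _ ⟨z', hz', rfl⟩
      change sh n z z' ∈ _
      rw [sh_Z hz']
      exact Submodule.mem_sup_right hz'
  exact h1 ⟨P, hP, rfl⟩

lemma isShear_sh {z : Sn n} (hz : z ∈ ZZ n) :
    IsShear (Submodule.span ℂ {(X 0 : Sn n), X 1}) (ZZ n) (sh n z) :=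
  ⟨fun _ hz' => sh_Z hz', fun _ hu => sh_U_sub hz hu⟩

lemma QQ.mono {s s' b a : ℕ} {F : Fm n a} (h : QQ s b F) (hs : s ≤ s') : QQ s' b F := by
  intro x z hz g hg
  obtain ⟨p, hp, hp'⟩ := h x z hz g hg
  exact ⟨p, lt_of_lt_of_le hp (by exact_mod_cast hs), hp'⟩

end Vale.Agent.P181.TN
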