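import Vale.Agent.P181.R2.H280.NStep
import Vale.Agent.P181.R2.H240.NLemmaI
import Vale.Agent.P181.R2.H425.RecM
import Vale.Agent.P181.R2.H572.NMix
import Vale.Agent.P181.R2.H866.NHL
import Vale.Agent.P181.R2.H866.NTStep
import Vale.Agent.P181.R2.H940.NTree

/-!
P181, all numbers of rows: the tail theorem.
-/

set_option autoImplicit false

open MvPolynomial

namespace Vale.Agent.P181.TN

open Vale.Agent.P181 Vale.Agent.P181.H536 Vale.Agent.P181.H280

theorem stepN (n s m b t : ℕ) (hs : 2 ≤ s) (hmb : m ≤ b) (h2m : 2 * m ≤ b + 1)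
    (hK1 : ∀ t', t' ≤ t → KK n m (b + 1) t') (hK2 : ∀ t', t' + s ≤ t → KK n (m + 1) b t')
    (hmt : m ≤ t) (h1 : n * ((s - 1) * (b + 1)) < (n + 1) * (t - m))
    (h2 : n * ((s - 1) * (b + 1)) + (m + 1) < (n + 1) * t) : KK n (m + 1) (b + 1) t :=
  stepN_of (fun hs hr F hI hH _ hw hQ h => mixed hs hr F hI hH hw hQ h)
    (fun hb hs h F hI hH hQ => lemmaI hb hs h F hI hH hQ)
    (fun hb hs hk hmk F hQ _ hw _ hB => heavy_full hb hs hk hmk F hQ hw hB)
    (fun hs hk hm F hQ hT _ hw _ hA => light hs hk hm F hQ hT hw hA)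
    (fun hs hK F hsy hI hH hF => tstep hs hK F hsy hI hH hF)
    s m b t hs hmb h2m hK1 hK2 hmt h1 h2

/-- **The tail theorem.** -/
theorem KK_all {n N a b t : ℕ} (hN : 1 ≤ N) (ha : a ≤ N + 1)
    (h : ∃ s, 1 ≤ s ∧ t + N * (2 * (s + n).choose (n + 1) - 1) ≤ s * b) : KK n a b t :=
  H425.recM_slope n N hN (KK n) (fun _ _ _ h ha => tree hN h ha) (zeroN n) (stepN n) a b t ha h

end Vale.Agent.P181.TN
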