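import Vale.Agent.P181.R2.H280.NDefs
import Vale.Agent.P181.R2.H572.Sl2B
import Vale.Agent.P181.R2.H572.Mix

/-!
P181: a form on `h` slots of degrees `d i` which is invariant under all the shears and has weight
`τ` vanishes if `n * ∑ d < (n + 2) * τ` (dominance of the weights of invariants).
-/

set_option autoImplicit false

open MvPolynomial

namespace Vale.Agent.P181.TM

open Vale.Agent.P181 Vale.Agent.P181.H536 Vale.Agent.P181.H280 Vale.Agent.P181.TN

variable {n : ℕ}

/-- `1` for the variables other than the first two -/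
def zt (k : Fin (n + 2)) : ℕ := if (k : ℕ) < 2 then 0 else 1

lemma scal_X (e : ℂ) (k : Fin (n + 2)) : scal n e (X k) = e ^ zt k • (X k : Sn n) := by
  refine Fin.cases ?_ (fun k => ?_) k
  · rw [scal_zero]; simp [zt]
  · refine Fin.cases ?_ (fun k => ?_) k
    · exact (scal_one e).trans (by simp [zt])
    · rw [scal_succ]
      have : zt (k.succ.succ : Fin (n + 2)) = 1 := by
        rw [zt, if_neg]
        rw [Fin.val_succ, Fin.val_succ]
        omega
      rw [this, pow_one]

lemma zt_z (l : Fin n) : zt (l.succ.succ : Fin (n + 2)) = 1 := by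
  rw [zt, if_neg]
  rw [Fin.val_succ, Fin.val_succ]
  omega

lemma zero_of_span_fam {κ : Type*} [Fintype κ] (Φ : MultilinearMap ℂ (fun _ : κ => Sn n) ℂ)
    (S : κ → Set (Sn n)) (h : ∀ w : κ → Sn n, (∀ i, w i ∈ S i) → Φ w = 0) (w : κ → Sn n)
    (hw : ∀ i, w i ∈ Submodule.span ℂ (S i)) : Φ w = 0 := by
  classical
  have h1 : ∀ i, ∃ l : (S i) →₀ ℂ,
      Finsupp.linearCombination ℂ (Subtype.val : S i → Sn n) l = w i := by
    intro i
    rw [← Finsupp.mem_span_iff_linearCombination]
    exact hw i
  choose l hl using h1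
  have h2 : w = fun i => ∑ r ∈ (l i).support, (l i r) • (r : Sn n) := by
    funext i
    rw [← hl i, Finsupp.linearCombination_apply, Finsupp.sum]
  rw [h2, MultilinearMap.map_sum_finset]
  apply Finset.sum_eq_zero
  intro r _
  rw [MultilinearMap.map_smul_univ, h _ (fun i => (r i).2), smul_zero]

lemma pair_le {D τ : ℕ} (B : MultilinearMap ℂ (fun _ : Fin D => Sn n) ℂ) (r : Fin (n + 2))
    (l : Fin n) (hr : zt r = 0) (g : ℂ → Sn n →ₐ[ℂ] Sn n)
    (hg : ∀ ε, g ε (X r) = X r + ε • X l.succ.succ) (hg' : ∀ ε k, k ≠ r → g ε (X k) = X k)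
    (hI : ∀ ε, ∀ v : Fin D → Sn n, (∀ b, v b ∈ linS (n + 2)) → B (fun b => g ε (v b)) = B v)
    (hH : ∀ e : ℂ, e ≠ 0 → ∀ v : Fin D → Sn n, (∀ b, v b ∈ linS (n + 2)) →
      B (fun b => scal n e (v b)) = e ^ τ * B v)
    (c : Fin D → Fin (n + 2)) (hc : B (fun b => X (c b)) ≠ 0) :
    (Finset.univ.filter (fun b => c b = l.succ.succ)).card ≤
      (Finset.univ.filter (fun b => c b = r)).card := by
  classical
  by_contra hlt
  push Not at hlt
  have hrl : r ≠ l.succ.succ := by
    rintro rfl
    rw [zt_z] at hr
    exact one_ne_zero hr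
  set z : Sn n := X l.succ.succ with hz
  obtain ⟨G, hG, hGd⟩ := mv_exists B (fun b => if c b = r ∨ c b = l.succ.succ then
    (C (X r) + X b * C z : MvPolynomial (Fin D) (Sn n)) else C (X (c b)))
  have hG' : ∀ γ : Fin D → ℂ, eval γ G =
      B (fun b => if c b = r ∨ c b = l.succ.succ then X r + γ b • z else X (c b)) := by
    intro γ
    rw [hG]
    congr 1
    funext b
    split_ifs
    · rw [map_add, map_mul, evA_C, evA_C, evA_X, Algebra.smul_def]
    · rw [evA_C]
  have hmem : ∀ (γ : Fin D → ℂ) (b : Fin D),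
      (if c b = r ∨ c b = l.succ.succ then X r + γ b • z else X (c b)) ∈ linS (n + 2) := by
    intro γ b
    split_ifs
    · exact (linS (n + 2)).add_mem (X_mem_linS _) ((linS (n + 2)).smul_mem _ (X_mem_linS _))
    · exact X_mem_linS _
  -- the weight of the monomial
  have hw : ∑ b, zt (c b) = τ := by
    have h1 := hH 2 two_ne_zero (fun b => X (c b)) (fun b => X_mem_linS _)
    simp only [scal_X] at h1
    rw [MultilinearMap.map_smul_univ, smul_eq_mul, Finset.prod_pow_eq_pow_sum] at h1
    have h2 := mul_right_cancel₀ hc h1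
    have h3 : (2 : ℕ) ^ (∑ b, zt (c b)) = 2 ^ τ := by exact_mod_cast h2
    exact Nat.pow_right_injective le_rfl h3
  set T := (Finset.univ.filter (fun b => c b = l.succ.succ)).card with hT
  set tz := ∑ b, (if c b = r ∨ c b = l.succ.succ then 0 else zt (c b)) with htz
  have hsum : tz + T = τ := by
    rw [← hw, htz, hT, Finset.card_filter, ← Finset.sum_add_distrib]
    apply Finset.sum_congr rfl
    intro b _
    by_cases h1 : c b = l.succ.succ
    · rw [if_pos (Or.inr h1), if_pos h1, h1, zt_z]
    · by_cases h2 : c b = r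
      · rw [if_pos (Or.inl h2), if_neg h1, h2, hr]
      · rw [if_neg (by tauto), if_neg h1, add_zero]
  have hhom : ∀ (γ : Fin D → ℂ) (e : ℂ), e ≠ 0 →
      eval (fun j => e * γ j) G = e ^ T * eval γ G := by
    intro γ e he
    have h1 := hH e he _ (hmem γ)
    have h2 : (fun b => scal n e (if c b = r ∨ c b = l.succ.succ then X r + γ b • z else X (c b))) =
        fun b => (e ^ (if c b = r ∨ c b = l.succ.succ then 0 else zt (c b))) •
          (if c b = r ∨ c b = l.succ.succ then X r + (e * γ b) • z else X (c b)) := by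
      funext b
      split_ifs
      · rw [map_add, map_smul, scal_X, hr, hz, scal_X, zt_z, pow_zero, one_smul, one_smul, pow_one,
          smul_smul, mul_comm e]
      · rw [scal_X]
    rw [h2, MultilinearMap.map_smul_univ, smul_eq_mul, Finset.prod_pow_eq_pow_sum, ← htz,
      ← hG' (fun j => e * γ j), ← hG' γ, ← hsum, pow_add, mul_assoc] at h1
    exact mul_left_cancel₀ (pow_ne_zero _ he) h1
  have hG0 : G = 0 := by
    refine Vale.Agent.P181.R2.H572.Blk.sl2_block (fun j : Fin D => j) (fun j => j) (fun _ => rfl)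
      (fun j => if c j = r ∨ c j = l.succ.succ then 1 else 0) (t := T) (l := T) G ?_ ?_ ?_ ?_ ?_
    · intro m hm j
      have h1 : (Finset.univ.filter (fun i : Fin D => i = j)) = {j} := by
        ext i; simp
      rw [h1, Finset.sum_singleton]
      refine (monomial_le_degreeOf j hm).trans ((hGd j).trans ?_)
      rw [Finset.sum_eq_single j]
      · split_ifs
        · refine (degreeOf_add_le _ _ _).trans ?_
          rw [degreeOf_C]
          refine max_le (Nat.zero_le _) ((degreeOf_mul_le _ _ _).trans ?_)
          rw [degreeOf_C, add_zero, degreeOf_X, if_pos rfl]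
        · rw [degreeOf_C]
      · intro b _ hb
        split_ifs
        · refine Nat.le_zero.1 ((degreeOf_add_le _ _ _).trans ?_)
          rw [degreeOf_C]
          refine max_le (Nat.zero_le _) ((degreeOf_mul_le _ _ _).trans ?_)
          rw [degreeOf_C, add_zero, degreeOf_X, if_neg (Ne.symm hb)]
        · rw [degreeOf_C]
      · intro hj
        exact absurd (Finset.mem_univ j) hj
    · exact Vale.Agent.P181.R2.H572.Mix.sum_of_scaling G T hhom
    · exact Vale.Agent.P181.R2.H572.Mix.sum_of_scaling G T hhom
    · intro ε γ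
      simp only [if_true]
      rw [hG', hG', ← hI ε _ (hmem γ)]
      congr 1
      funext b
      split_ifs with h1
      · rw [map_add, map_smul, hg, hg' ε _ (Ne.symm hrl), add_smul]
        abel
      · rw [hg' ε _ (fun h2 => h1 (Or.inl h2))]
    · have h1 : ∑ j, (if c j = r ∨ c j = l.succ.succ then 1 else 0) =
          (Finset.univ.filter (fun b => c b = r)).card + T := by
        rw [hT, Finset.card_filter, Finset.card_filter, ← Finset.sum_add_distrib]
        apply Finset.sum_congr rfl
        intro b _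
        by_cases h2 : c b = r
        · rw [if_pos (Or.inl h2), if_pos h2, if_neg (by rw [h2]; exact hrl)]
        · by_cases h3 : c b = l.succ.succ
          · rw [if_pos (Or.inr h3), if_neg h2, if_pos h3]
          · rw [if_neg (by tauto), if_neg h2, if_neg h3]
      rw [h1]
      omega
  apply hc
  apply zero_of_span_fam B (fun b => if c b = r ∨ c b = l.succ.succ then
    {X r + (0 : ℂ) • z, X r + (1 : ℂ) • z} else {X (c b)})
  · intro w hw'
    have h1 : ∀ b, ∃ γ : ℂ, w b =
        if c b = r ∨ c b = l.succ.succ then X r + γ • z else X (c b) := by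
      intro b
      have h2 := hw' b
      by_cases h3 : c b = r ∨ c b = l.succ.succ
      · rw [if_pos h3] at h2
        rcases h2 with h2 | h2
        · exact ⟨0, by rw [if_pos h3]; exact h2⟩
        · exact ⟨1, by rw [if_pos h3]; exact h2⟩
      · rw [if_neg h3] at h2
        exact ⟨0, by rw [if_neg h3]; exact h2⟩
    choose γ hγ using h1
    have h2 := hG' γ
    rw [hG0, map_zero] at h2
    rw [h2]
    congr 1
    funext b
    exact hγ b
  · intro b
    by_cases h3 : c b = r ∨ c b = l.succ.succ
    · rw [if_pos h3]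
      rcases h3 with h3 | h3
      · rw [h3]
        exact Submodule.subset_span (Or.inl (by rw [zero_smul, add_zero]))
      · have h4 : (X (c b) : Sn n) = (X r + (1 : ℂ) • z) - (X r + (0 : ℂ) • z) := by
          rw [h3, one_smul, zero_smul, add_zero, hz]
          abel
        rw [h4]
        exact Submodule.sub_mem _ (Submodule.subset_span (Or.inr rfl))
          (Submodule.subset_span (Or.inl rfl))
    · rw [if_neg h3]
      exact Submodule.subset_span rfl

/-- the statement for a multilinear form in linear forms -/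
theorem third_lin {D τ : ℕ} (B : MultilinearMap ℂ (fun _ : Fin D => Sn n) ℂ)
    (hI : ∀ z ∈ ZZ n, ∀ w ∈ ZZ n, ∀ v : Fin D → Sn n, (∀ b, v b ∈ linS (n + 2)) →
      B (fun b => shr n z w (v b)) = B v)
    (hH : ∀ e : ℂ, e ≠ 0 → ∀ v : Fin D → Sn n, (∀ b, v b ∈ linS (n + 2)) →
      B (fun b => scal n e (v b)) = e ^ τ * B v)
    (hlt : n * D < (n + 2) * τ) (v : Fin D → Sn n) (hv : ∀ b, v b ∈ linS (n + 2)) : B v = 0 := by
  classical
  apply multilinear_zero_of_span B (Set.range (fun i : Fin (n + 2) => (X i : Sn n)))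
  · intro w hw
    choose c hc using hw
    have hw' : w = fun b => X (c b) := by
      funext b; exact (hc b).symm
    rw [hw']
    by_contra hne
    have hz : ∀ l : Fin n, (X l.succ.succ : Sn n) ∈ ZZ n := fun l =>
      Submodule.subset_span ⟨l, rfl⟩
    have h0 : ∀ l : Fin n, (Finset.univ.filter (fun b => c b = l.succ.succ)).card ≤
        (Finset.univ.filter (fun b => c b = 0)).card := by
      intro l
      refine pair_le (τ := τ) B 0 l (by simp [zt]) (fun ε => shr n (ε • X l.succ.succ) 0)
        (fun ε => shr_zero _ _) ?_ (fun ε v hv => hI _ ((ZZ n).smul_mem _ (hz l)) 0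
          (ZZ n).zero_mem v hv) hH c hne
      intro ε k hk
      refine Fin.cases (motive := fun k => k ≠ 0 → shr n (ε • X l.succ.succ) 0 (X k) = X k)
        (fun h => absurd rfl h) (fun k _ => ?_) k hk
      refine Fin.cases ?_ (fun k => ?_) k
      · exact (shr_one _ _).trans (add_zero _)
      · exact shr_succ _ _ _
    have h1 : ∀ l : Fin n, (Finset.univ.filter (fun b => c b = l.succ.succ)).card ≤
        (Finset.univ.filter (fun b => c b = 1)).card := by
      intro l
      refine pair_le (τ := τ) B 1 l (by simp [zt]) (fun ε => shr n 0 (ε • X l.succ.succ))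
        (fun ε => shr_one _ _) ?_ (fun ε v hv => hI 0 (ZZ n).zero_mem _
          ((ZZ n).smul_mem _ (hz l)) v hv) hH c hne
      intro ε k hk
      refine Fin.cases (motive := fun k => k ≠ 1 → shr n 0 (ε • X l.succ.succ) (X k) = X k)
        (fun _ => ?_) (fun k => ?_) k hk
      · exact (shr_zero _ _).trans (add_zero _)
      · refine Fin.cases (motive := fun k : Fin (n + 1) => k.succ ≠ 1 →
          shr n 0 (ε • X l.succ.succ) (X k.succ) = X k.succ) (fun h => absurd rfl h)
          (fun k _ => shr_succ _ _ _) k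
    have hw2 : ∑ b, zt (c b) = τ := by
      have h1 := hH 2 two_ne_zero (fun b => X (c b)) (fun b => X_mem_linS _)
      simp only [scal_X] at h1
      rw [MultilinearMap.map_smul_univ, smul_eq_mul, Finset.prod_pow_eq_pow_sum] at h1
      have h2 := mul_right_cancel₀ hne h1
      have h3 : (2 : ℕ) ^ (∑ b, zt (c b)) = 2 ^ τ := by exact_mod_cast h2
      exact Nat.pow_right_injective le_rfl h3
    -- fibers
    have hcard : ∑ k : Fin (n + 2), (Finset.univ.filter (fun b => c b = k)).card = D := by
      have h2 := Finset.card_eq_sum_card_fiberwise (s := (Finset.univ : Finset (Fin D)))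
        (t := (Finset.univ : Finset (Fin (n + 2)))) (f := c) (fun _ _ => Finset.mem_univ _)
      rw [Finset.card_univ, Fintype.card_fin] at h2
      exact h2.symm
    have hzc : ∑ l : Fin n, (Finset.univ.filter (fun b => c b = l.succ.succ)).card = τ := by
      rw [← hw2, ← Finset.sum_fiberwise (s := Finset.univ) (g := c) (f := fun b => zt (c b)),
        Fin.sum_univ_succ, Fin.sum_univ_succ]
      have e0 : ∑ b with c b = 0, zt (c b) = 0 := by
        apply Finset.sum_eq_zero
        intro b hb
        rw [(Finset.mem_filter.1 hb).2]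
        simp [zt]
      have e1 : ∑ b with c b = Fin.succ 0, zt (c b) = 0 := by
        apply Finset.sum_eq_zero
        intro b hb
        rw [(Finset.mem_filter.1 hb).2]
        simp [zt]
      rw [e0, e1, zero_add, zero_add]
      apply Finset.sum_congr rfl
      intro l _
      rw [Finset.card_eq_sum_ones]
      apply Finset.sum_congr rfl
      intro b hb
      rw [(Finset.mem_filter.1 hb).2, zt_z]
    rw [Fin.sum_univ_succ, Fin.sum_univ_succ, hzc] at hcard
    have h2 : τ ≤ n * (Finset.univ.filter (fun b => c b = 0)).card := by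
      calc τ = ∑ l : Fin n, (Finset.univ.filter (fun b => c b = l.succ.succ)).card := hzc.symm
        _ ≤ ∑ _l : Fin n, (Finset.univ.filter (fun b => c b = 0)).card :=
          Finset.sum_le_sum fun l _ => h0 l
        _ = _ := by rw [Finset.sum_const, Finset.card_univ, Fintype.card_fin, smul_eq_mul]
    have h3 : τ ≤ n * (Finset.univ.filter (fun b => c b = 1)).card := by
      calc τ = ∑ l : Fin n, (Finset.univ.filter (fun b => c b = l.succ.succ)).card := hzc.symm
        _ ≤ ∑ _l : Fin n, (Finset.univ.filter (fun b => c b = 1)).card :=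
          Finset.sum_le_sum fun l _ => h1 l
        _ = _ := by rw [Finset.sum_const, Finset.card_univ, Fintype.card_fin, smul_eq_mul]
    have h4 : (Finset.univ.filter (fun b => c b = Fin.succ 0)).card =
        (Finset.univ.filter (fun b => c b = (1 : Fin (n + 2)))).card := rfl
    rw [h4] at hcard
    have h5 : n * D = n * (Finset.univ.filter (fun b => c b = 0)).card +
        n * (Finset.univ.filter (fun b => c b = (1 : Fin (n + 2)))).card + n * τ := by
      have h7 := congrArg (fun k : ℕ => n * k) hcard
      simp only [mul_add] at h7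
      omega
    have h6 : (n + 2) * τ = n * τ + τ + τ := by ring
    omega
  · intro b
    exact hv b

lemma fac_key {h : ℕ} (d : Fin h → ℕ) [DecidableEq (Fin (∑ i, d i))]
    (v : Fin (∑ i, d i) → Sn n) (i₀ : Fin h) (j₀ : Fin (d i₀)) (z : Sn n) :
    (fun i => ∏ j : Fin (d i),
      Function.update v (finSigmaFinEquiv ⟨i₀, j₀⟩) z (finSigmaFinEquiv ⟨i, j⟩)) =
      Function.update (fun i => ∏ j : Fin (d i), v (finSigmaFinEquiv ⟨i, j⟩)) i₀
        (z * ∏ j ∈ Finset.univ.erase j₀, v (finSigmaFinEquiv ⟨i₀, j⟩)) := by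
  funext i
  by_cases hi : i = i₀
  · subst hi
    rw [Function.update_self, ← Finset.mul_prod_erase Finset.univ _ (Finset.mem_univ j₀)]
    congr 1
    · simp
    · refine Finset.prod_congr rfl fun j hj => ?_
      rw [Function.update_of_ne]
      intro h
      have h1 := finSigmaFinEquiv.injective h
      simp only [Sigma.mk.injEq, heq_eq_eq, true_and] at h1
      exact Finset.ne_of_mem_erase hj h1
  · rw [Function.update_of_ne hi]
    refine Finset.prod_congr rfl fun j _ => ?_
    rw [Function.update_of_ne]
    intro h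
    exact hi (congrArg Sigma.fst (finSigmaFinEquiv.injective h))

/-- `F` of products of linear forms, as a multilinear map of all the factors. -/
noncomputable def fac {h : ℕ} (d : Fin h → ℕ) (F : Fm n h) :
    MultilinearMap ℂ (fun _ : Fin (∑ i, d i) => Sn n) ℂ where
  toFun v := F (fun i => ∏ j : Fin (d i), v (finSigmaFinEquiv ⟨i, j⟩))
  map_update_add' := by
    intro _ v q x y
    obtain ⟨⟨i₀, j₀⟩, rfl⟩ := finSigmaFinEquiv.surjective q
    rw [fac_key, fac_key, fac_key, add_mul, MultilinearMap.map_update_add]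
  map_update_smul' := by
    intro _ v q c x
    obtain ⟨⟨i₀, j₀⟩, rfl⟩ := finSigmaFinEquiv.surjective q
    rw [fac_key, fac_key, smul_mul_assoc, MultilinearMap.map_update_smul]

lemma fac_apply {h : ℕ} (d : Fin h → ℕ) (F : Fm n h) (v : Fin (∑ i, d i) → Sn n) :
    fac d F v = F (fun i => ∏ j : Fin (d i), v (finSigmaFinEquiv ⟨i, j⟩)) := rfl

/-- **Row M1.** -/
theorem third {n h τ : ℕ} (d : Fin h → ℕ) (F : Fm n h)
    (hI : ∀ z ∈ ZZ n, ∀ w ∈ ZZ n, ∀ P : Fin h → Sn n, (∀ i, P i ∈ linS (n + 2) ^ d i) →
      F (fun i => shr n z w (P i)) = F P)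
    (hH : ∀ c : ℂ, c ≠ 0 → ∀ P : Fin h → Sn n, (∀ i, P i ∈ linS (n + 2) ^ d i) →
      F (fun i => scal n c (P i)) = c ^ τ * F P)
    (hlt : n * ∑ i, d i < (n + 2) * τ) :
    ∀ P : Fin h → Sn n, (∀ i, P i ∈ linS (n + 2) ^ d i) → F P = 0 := by
  classical
  intro P hP
  have hmem : ∀ v : Fin (∑ i, d i) → Sn n, (∀ b, v b ∈ linS (n + 2)) → ∀ i,
      ∏ j : Fin (d i), v (finSigmaFinEquiv ⟨i, j⟩) ∈ linS (n + 2) ^ d i := by
    intro v hv i
    exact prod_mem_pow _ _ (fun j => hv _)
  have h1 := third_lin (τ := τ) (fac d F)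
    (by
      intro z hz w hw v hv
      rw [fac_apply, fac_apply, ← hI z hz w hw _ (hmem v hv)]
      congr 1
      funext i
      rw [map_prod])
    (by
      intro e he v hv
      rw [fac_apply, fac_apply, ← hH e he _ (hmem v hv)]
      congr 1
      funext i
      rw [map_prod])
    hlt
  apply zero_of_span_fam F (fun i => Set.range (fun c : Fin (d i) → Fin (n + 2) =>
    ∏ j, (X (c j) : Sn n)))
  · intro w hw
    choose c hc using hw
    have hw' : w = fun i => ∏ j : Fin (d i),
        (X (c (finSigmaFinEquiv.symm (finSigmaFinEquiv ⟨i, j⟩)).1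
          (finSigmaFinEquiv.symm (finSigmaFinEquiv ⟨i, j⟩)).2) : Sn n) := by
      funext i
      rw [← hc i]
      refine Finset.prod_congr rfl fun j _ => ?_
      rw [Equiv.symm_apply_apply]
    rw [hw']
    exact h1 (fun b => X (c (finSigmaFinEquiv.symm b).1 (finSigmaFinEquiv.symm b).2))
      (fun b => X_mem_linS _)
  · intro i
    exact span_pow_eq _ _ (hP i)

end Vale.Agent.P181.TM
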