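import Vale.Agent.P181.R2.H280.Third
import Vale.Agent.P181.R2.H151.Core
import Vale.Agent.P181.R2.H240.NChart
import Vale.Agent.P181.R2.H240.LemmaI
import Mathlib.LinearAlgebra.Lagrange

/-!
P181, three rows: the joint lemma on heavy slots and columns.
-/

set_option autoImplicit false

open MvPolynomial

namespace Vale.Agent.P181.TM

open Vale.Agent.P181 Vale.Agent.P181.H536 Vale.Agent.P181.H280 Vale.Agent.P181.TN

/-- The index of the third variable. -/
def k2 : Fin (1 + 2) := (0 : Fin 1).succ.succ

/-- The third variable. -/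
noncomputable def z2 : Sn 1 := X k2

lemma z2_mem : z2 ∈ ZZ 1 := Submodule.subset_span ⟨0, rfl⟩

lemma zt_k2 : zt k2 = 1 := zt_z 0

lemma zt_of_ne {k : Fin (1 + 2)} (h : k ≠ k2) : zt k = 0 := by
  rw [zt, if_pos]
  by_contra h1
  apply h
  apply Fin.ext
  have h2 : (k : ℕ) < 1 + 2 := k.2
  have h3 : (k2 : ℕ) = 2 := rfl
  omega

lemma ZZ1_exists {z : Sn 1} (hz : z ∈ ZZ 1) : ∃ e : ℂ, z = e • z2 := by
  rw [ZZ] at hz
  induction hz using Submodule.span_induction with
  | mem x hx =>
    obtain ⟨i, rfl⟩ := hx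
    refine ⟨1, ?_⟩
    rw [one_smul, Subsingleton.elim i 0]
    rfl
  | zero => exact ⟨0, (zero_smul ℂ z2).symm⟩
  | add x y _ _ hx hy =>
    obtain ⟨α, rfl⟩ := hx
    obtain ⟨β, rfl⟩ := hy
    exact ⟨α + β, (add_smul _ _ _).symm⟩
  | smul c x _ hx =>
    obtain ⟨α, rfl⟩ := hx
    exact ⟨c * α, (mul_smul _ _ _).symm⟩

/-- The product of lines. -/
noncomputable def QL {b : ℕ} (x u : Fin b → ℂ) : Sn 1 := ∏ l, (ln 1 (x l) + u l • z2)

lemma line2_mem (x u : ℂ) : ln 1 x + u • z2 ∈ linS (1 + 2) :=
  line_mem ((ZZ 1).smul_mem _ z2_mem) x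

lemma QL_mem {b : ℕ} (x u : Fin b → ℂ) : QL x u ∈ linS (1 + 2) ^ b :=
  prod_mem_pow _ _ (fun _ => line2_mem _ _)

lemma QL_shr {b : ℕ} (x u : Fin b → ℂ) (α β : ℂ) :
    shr 1 (α • z2) (β • z2) (QL x u) = QL x (fun l => u l + (α + x l * β)) := by
  rw [QL, QL, map_prod]
  refine Finset.prod_congr rfl fun l _ => ?_
  rw [map_add, map_smul, shr_Z z2_mem, shr_ln, smul_smul, ← add_smul, add_assoc, ← add_smul,
    add_comm (α + x l * β)]

lemma QL_scal {b : ℕ} (x u : Fin b → ℂ) (e : ℂ) :
    scal 1 e (QL x u) = QL x (fun l => e * u l) := by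
  rw [QL, QL, map_prod]
  refine Finset.prod_congr rfl fun l _ => ?_
  rw [map_add, map_smul, scal_Z z2_mem, scal_ln, smul_smul, mul_comm]

/-- extraction of a coefficient -/
lemma coef_ext (K g : ℕ) : ∃ (a c : Fin (K + 1) → ℂ), ∀ p : Polynomial ℂ, p.natDegree ≤ K →
    ∑ i, a i * p.eval (c i) = p.coeff g := by
  classical
  let v : Fin (K + 1) → ℂ := fun i => ((i : ℕ) : ℂ)
  have hv : Set.InjOn v (Finset.univ : Finset (Fin (K + 1))) := by
    intro i _ j _ hij
    exact Fin.ext (Nat.cast_injective hij)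
  refine ⟨fun i => (Lagrange.basis Finset.univ v i).coeff g, v, ?_⟩
  intro p hp
  have h1 : p = Lagrange.interpolate Finset.univ v (fun i => p.eval (v i)) := by
    apply Lagrange.eq_interpolate hv
    rw [Finset.card_univ, Fintype.card_fin]
    refine lt_of_le_of_lt Polynomial.degree_le_natDegree ?_
    exact_mod_cast Nat.lt_succ_of_le hp
  conv_rhs => rw [h1]
  rw [Lagrange.interpolate_apply, Polynomial.finsetSum_coeff]
  refine Finset.sum_congr rfl fun i _ => ?_
  rw [Polynomial.coeff_C_mul, mul_comm]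

section Core

variable {D b m s τ : ℕ}

/-- evaluation at one argument, as a linear map -/
noncomputable def evQ (m : ℕ) (Q : Sn 1) : Fm 1 m →ₗ[ℂ] ℂ where
  toFun F := F (fun _ => Q)
  map_add' _ _ := rfl
  map_smul' _ _ := rfl

lemma evQ_apply (Q : Sn 1) (F : Fm 1 m) : evQ m Q F = F (fun _ => Q) := rfl

lemma pairJ (hs : 1 ≤ s) (A : MultilinearMap ℂ (fun _ : Fin D => Sn 1) (Fm 1 m))
    (hI : ∀ z ∈ ZZ 1, ∀ w ∈ ZZ 1, ∀ v : Fin D → Sn 1, (∀ i, v i ∈ linS (1 + 2)) →
      ∀ P : Fin m → Sn 1, Dg b P →
      A (fun i => shr 1 z w (v i)) (fun i => shr 1 z w (P i)) = A v P)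
    (hH : ∀ e : ℂ, e ≠ 0 → ∀ v : Fin D → Sn 1, (∀ i, v i ∈ linS (1 + 2)) →
      ∀ P : Fin m → Sn 1, Dg b P →
      A (fun i => scal 1 e (v i)) (fun i => scal 1 e (P i)) = e ^ τ * A v P)
    (hQ : ∀ v : Fin D → Sn 1, (∀ i, v i ∈ linS (1 + 2)) → QQ s b (A v))
    (r : Fin (1 + 2)) (hr : r ≠ k2) (α β : ℂ)
    (hg : ∀ e : ℂ, shr 1 ((e * α) • z2) ((e * β) • z2) (X r) = X r + e • z2)
    (hg' : ∀ (e : ℂ) (k : Fin (1 + 2)), k ≠ r → shr 1 ((e * α) • z2) ((e * β) • z2) (X k) = X k)
    (c : Fin D → Fin (1 + 2)) (x : Fin b → ℂ)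
    (hlt : (Finset.univ.filter (fun i => c i = r ∨ c i = k2)).card + (s - 1) * b < 2 * τ)
    (ζ : Fin b → ℂ) :
    A (fun i => X (c i)) (fun _ => QL x (fun l => (α + x l * β) * ζ l)) = 0 := by
  classical
  -- the combined multilinear form
  set F' : MultilinearMap ℂ (fun _ : Fin (D + m) => Sn 1) ℂ :=
    (A.uncurrySum).domDomCongr finSumFinEquiv with hF'
  set Pr : Fin (D + m) → MvPolynomial (Fin D ⊕ Fin b) (Sn 1) := fun i =>
    Sum.elim (fun j : Fin D => if c j = r ∨ c j = k2 then
      (C (X r) + X (Sum.inl j) * C z2 : MvPolynomial (Fin D ⊕ Fin b) (Sn 1)) else C (X (c j)))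
      (fun _ : Fin m => ∏ l : Fin b, (C (ln 1 (x l)) +
        X (Sum.inr l) * C ((α + x l * β) • z2) : MvPolynomial (Fin D ⊕ Fin b) (Sn 1)))
      (finSumFinEquiv.symm i) with hPr
  obtain ⟨G, hG, -⟩ := mv_exists F' Pr
  obtain ⟨vv, hvv⟩ : ∃ vv : (Fin D ⊕ Fin b → ℂ) → Fin D → Sn 1, ∀ u i, vv u i =
      if c i = r ∨ c i = k2 then X r + u (Sum.inl i) • z2 else X (c i) := ⟨_, fun _ _ => rfl⟩
  have hG' : ∀ u : Fin D ⊕ Fin b → ℂ, eval u G =
      A (vv u) (fun _ => QL x (fun l => (α + x l * β) * u (Sum.inr l))) := by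
    intro u
    rw [hG, hF', MultilinearMap.domDomCongr_apply, MultilinearMap.uncurrySum_apply]
    congr 1
    · congr 1
      funext i
      simp only [hPr, Equiv.symm_apply_apply, Sum.elim_inl, hvv]
      split_ifs
      · rw [map_add, map_mul, evA_C, evA_C, evA_X, Algebra.smul_def]
      · rw [evA_C]
    · funext i
      simp only [hPr, Equiv.symm_apply_apply, Sum.elim_inr, QL, map_prod]
      refine Finset.prod_congr rfl fun l _ => ?_
      rw [map_add, map_mul, evA_C, evA_C, evA_X, ← Algebra.smul_def, smul_smul, mul_comm (u _)]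
  have hmem : ∀ u i, vv u i ∈ linS (1 + 2) := by
    intro u i
    rw [hvv]
    split_ifs
    · exact (linS (1 + 2)).add_mem (X_mem_linS _) ((linS (1 + 2)).smul_mem _ (X_mem_linS _))
    · exact X_mem_linS _
  have hhom : ∀ (u : Fin D ⊕ Fin b → ℂ) (e : ℂ), e ≠ 0 →
      eval (fun j => e * u j) G = e ^ τ * eval u G := by
    intro u e he
    rw [hG', hG', ← hH e he _ (hmem u) _ (fun _ => QL_mem _ _)]
    congr 1
    · congr 1
      funext i
      rw [hvv, hvv]
      split_ifs with h1
      · rw [map_add, map_smul, scal_X, zt_of_ne hr, scal_Z z2_mem, pow_zero, one_smul, smul_smul,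
          mul_comm e]
      · rw [scal_X, zt_of_ne (fun h2 => h1 (Or.inr h2)), pow_zero, one_smul]
    · funext i
      rw [QL_scal]
      congr 1
      funext l
      ring
  have hG0 : G = 0 := by
    refine Vale.Agent.P181.R2.H572.Blk.sl2_block (fun j : Fin D ⊕ Fin b => j) (fun j => j)
      (fun _ => rfl) (fun j => Sum.elim (fun i => if c i = r ∨ c i = k2 then 1 else 0)
        (fun _ => s - 1) j) (t := τ) (l := τ) G ?_ ?_ ?_ ?_ ?_
    · intro μ hμ j
      have h1 : (Finset.univ.filter (fun i : Fin D ⊕ Fin b => i = j)) = {j} := by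
        ext i; simp
      rw [h1, Finset.sum_singleton]
      refine (monomial_le_degreeOf j hμ).trans ?_
      apply Vale.Agent.P181.H240.degreeOf_le_of_lines
      intro u
      rcases j with i | l
      · -- a row
        refine ⟨if c i = r ∨ c i = k2 then
          Polynomial.C (A (Function.update (vv u) i (X r))
            (fun _ => QL x (fun l => (α + x l * β) * u (Sum.inr l)))) +
          Polynomial.C (A (Function.update (vv u) i z2)
            (fun _ => QL x (fun l => (α + x l * β) * u (Sum.inr l)))) * Polynomial.X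
          else Polynomial.C (A (vv u)
            (fun _ => QL x (fun l => (α + x l * β) * u (Sum.inr l)))), ?_, ?_⟩
        · rw [Sum.elim_inl]
          split_ifs
          · refine (Polynomial.natDegree_add_le _ _).trans (max_le ?_ ?_)
            · rw [Polynomial.natDegree_C]; exact Nat.zero_le _
            · exact (Polynomial.natDegree_C_mul_le _ _).trans Polynomial.natDegree_X_le
          · rw [Polynomial.natDegree_C]
        · intro e
          rw [hG']
          have h2 : (fun l => (α + x l * β) * Function.update u (Sum.inl i) e (Sum.inr l)) =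
              fun l => (α + x l * β) * u (Sum.inr l) := by
            funext l
            rw [Function.update_of_ne (by simp)]
          rw [h2]
          by_cases h3 : c i = r ∨ c i = k2
          · rw [if_pos h3]
            have h4 : vv (Function.update u (Sum.inl i) e) =
                Function.update (vv u) i (X r + e • z2) := by
              funext i'
              by_cases hi : i' = i
              · subst hi
                rw [Function.update_self, hvv, if_pos h3, Function.update_self]
              · rw [Function.update_of_ne hi, hvv, hvv, Function.update_of_ne]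
                intro h5
                exact hi (Sum.inl_injective h5)
            rw [h4, A.map_update_add, A.map_update_smul, _root_.add_apply, _root_.smul_apply,
              smul_eq_mul, Polynomial.eval_add, Polynomial.eval_mul, Polynomial.eval_C,
              Polynomial.eval_C, Polynomial.eval_X, mul_comm e]
          · rw [if_neg h3, Polynomial.eval_C]
            congr 2
            funext i'
            by_cases hi : i' = i
            · subst hi
              rw [hvv, hvv, if_neg h3, if_neg h3]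
            · rw [hvv, hvv, Function.update_of_ne]
              intro h5
              exact hi (Sum.inl_injective h5)
      · -- a column
        obtain ⟨p, hp, hpe⟩ := hQ (vv u) (hmem u) (x l) ((α + x l * β) • z2)
          ((ZZ 1).smul_mem _ z2_mem) (fun _ => ∏ l' ∈ Finset.univ.erase l,
            (ln 1 (x l') + ((α + x l' * β) * u (Sum.inr l')) • z2)) (by
            intro _
            have h1 := Vale.Agent.P181.H240.prod_mem_pow_card (linS (1 + 2))
              (Finset.univ.erase l)
              (fun l' => ln 1 (x l') + ((α + x l' * β) * u (Sum.inr l')) • z2)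
              (fun l' => line2_mem _ _)
            rwa [Finset.card_erase_of_mem (Finset.mem_univ l), Finset.card_univ,
              Fintype.card_fin] at h1)
        refine ⟨p, ?_, ?_⟩
        · rw [Sum.elim_inr]
          by_cases hp0 : p = 0
          · rw [hp0]; simp
          · rw [Polynomial.degree_eq_natDegree hp0] at hp
            have : p.natDegree < s := by exact_mod_cast hp
            omega
        · intro e
          rw [hG', hpe]
          congr 1
          · congr 1
            funext i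
            rw [hvv, hvv, Function.update_of_ne (by simp)]
          · funext _
            rw [QL, ← Finset.mul_prod_erase Finset.univ _ (Finset.mem_univ l),
              Function.update_self, smul_smul, mul_comm e]
            congr 1
            refine Finset.prod_congr rfl fun l' hl' => ?_
            rw [Function.update_of_ne]
            intro h5
            exact Finset.ne_of_mem_erase hl' (Sum.inr_injective h5)
    · exact Vale.Agent.P181.R2.H572.Mix.sum_of_scaling G τ hhom
    · exact Vale.Agent.P181.R2.H572.Mix.sum_of_scaling G τ hhom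
    · intro e u
      simp only [if_true]
      rw [hG', hG', ← hI ((e * α) • z2) ((ZZ 1).smul_mem _ z2_mem) ((e * β) • z2)
        ((ZZ 1).smul_mem _ z2_mem) _ (hmem u) _ (fun _ => QL_mem _ _)]
      congr 1
      · congr 1
        funext i
        rw [hvv, hvv]
        split_ifs with h1
        · rw [map_add, map_smul, hg, shr_Z z2_mem, add_smul]
          abel
        · rw [hg' e _ (fun h2 => h1 (Or.inl h2))]
      · funext _
        rw [QL_shr]
        congr 1
        funext l
        ring
    · rw [Fintype.sum_sum_type]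
      simp only [Sum.elim_inl, Sum.elim_inr]
      rw [← Finset.card_filter, Finset.sum_const, Finset.card_univ, Fintype.card_fin,
        smul_eq_mul, mul_comm b]
      omega
  have h0 : ∀ u : Fin D ⊕ Fin b → ℂ,
      A (vv u) (fun _ => QL x (fun l => (α + x l * β) * u (Sum.inr l))) = 0 := by
    intro u
    rw [← hG', hG0, map_zero]
  change evQ m (QL x (fun l => (α + x l * β) * ζ l)) (A (fun i => X (c i))) = 0
  apply zero_of_span_fam ((evQ m (QL x (fun l => (α + x l * β) * ζ l))).compMultilinearMap A)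
    (fun i => if c i = r ∨ c i = k2 then
      {X r + (0 : ℂ) • z2, X r + (1 : ℂ) • z2} else {X (c i)})
  · intro w hw'
    have h1 : ∀ i, ∃ γ : ℂ, w i =
        if c i = r ∨ c i = k2 then X r + γ • z2 else X (c i) := by
      intro i
      have h2 := hw' i
      by_cases h3 : c i = r ∨ c i = k2
      · rw [if_pos h3] at h2
        rcases h2 with h2 | h2
        · exact ⟨0, by rw [if_pos h3]; exact h2⟩
        · exact ⟨1, by rw [if_pos h3]; exact h2⟩
      · rw [if_neg h3] at h2
        exact ⟨0, by rw [if_neg h3]; exact h2⟩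
    choose γ hγ using h1
    have h2 := h0 (Sum.elim γ ζ)
    have h3 : vv (Sum.elim γ ζ) = w := by
      funext i
      rw [hvv, hγ i, Sum.elim_inl]
    rw [h3] at h2
    exact h2
  · intro i
    by_cases h3 : c i = r ∨ c i = k2
    · rw [if_pos h3]
      rcases h3 with h3 | h3
      · rw [h3]
        exact Submodule.subset_span (Or.inl (by rw [zero_smul, add_zero]))
      · have h4 : (X (c i) : Sn 1) = (X r + (1 : ℂ) • z2) - (X r + (0 : ℂ) • z2) := by
          rw [h3, one_smul, zero_smul, add_zero, z2]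
          abel
        rw [h4]
        exact Submodule.sub_mem _ (Submodule.subset_span (Or.inr rfl))
          (Submodule.subset_span (Or.inl rfl))
    · rw [if_neg h3]
      exact Submodule.subset_span rfl

lemma scal_shr_X (t α β : ℂ) (k : Fin (1 + 2)) :
    scal 1 t (shr 1 (α • z2) (β • z2) (X k)) =
      shr 1 ((t * α) • z2) ((t * β) • z2) (scal 1 t (X k)) := by
  refine Fin.cases ?_ (fun k => ?_) k
  · rw [shr_zero, map_add, map_smul, scal_Z z2_mem, scal_zero, shr_zero, smul_smul, mul_comm α]
  · refine Fin.cases ?_ (fun k => ?_) k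
    · have h1 : shr 1 (α • z2) (β • z2) (X (Fin.succ 0)) = X 1 + β • z2 := shr_one _ _
      have h2 : scal 1 t (X (Fin.succ 0) : Sn 1) = X 1 := scal_one t
      rw [h1, h2, map_add, map_smul, scal_Z z2_mem, scal_one, shr_one, smul_smul, mul_comm β]
    · rw [shr_succ, scal_succ, map_smul, shr_succ]

lemma zt_pair : ∀ k : Fin (1 + 2), (if k = 0 ∨ k = k2 then 1 else 0) +
    (if k = 1 ∨ k = k2 then 1 else 0) ≤ 1 + zt k := by
  decide

lemma zt_le : ∀ k : Fin (1 + 2), zt k ≤ 1 := by
  decide

lemma jointA (hs : 1 ≤ s) (A : MultilinearMap ℂ (fun _ : Fin D => Sn 1) (Fm 1 m))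
    (hI : ∀ z ∈ ZZ 1, ∀ w ∈ ZZ 1, ∀ v : Fin D → Sn 1, (∀ i, v i ∈ linS (1 + 2)) →
      ∀ P : Fin m → Sn 1, Dg b P →
      A (fun i => shr 1 z w (v i)) (fun i => shr 1 z w (P i)) = A v P)
    (hH : ∀ e : ℂ, e ≠ 0 → ∀ v : Fin D → Sn 1, (∀ i, v i ∈ linS (1 + 2)) →
      ∀ P : Fin m → Sn 1, Dg b P →
      A (fun i => scal 1 e (v i)) (fun i => scal 1 e (P i)) = e ^ τ * A v P)
    (hQ : ∀ v : Fin D → Sn 1, (∀ i, v i ∈ linS (1 + 2)) → QQ s b (A v))
    (hlt : 2 * D + 3 * ((s - 1) * b) < 6 * τ) (x : Fin b → ℂ) (hx : ∀ l, x l ≠ 0)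
    (c : Fin D → Fin (1 + 2)) (ζ : Fin b → ℂ) :
    A (fun i => X (c i)) (fun _ => QL x ζ) = 0 := by
  classical
  by_contra hne
  have hex : ∃ g, ∃ (c : Fin D → Fin (1 + 2)) (ζ : Fin b → ℂ), ∑ i, zt (c i) = g ∧
      A (fun i => X (c i)) (fun _ => QL x ζ) ≠ 0 := ⟨_, c, ζ, rfl, hne⟩
  obtain ⟨c0, ζ0, hc0, hne0⟩ := Nat.find_spec hex
  have hmin : ∀ (c : Fin D → Fin (1 + 2)) (ζ : Fin b → ℂ), ∑ i, zt (c i) < Nat.find hex →
      A (fun i => X (c i)) (fun _ => QL x ζ) = 0 := by
    intro c ζ h1
    by_contra h2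
    exact Nat.find_min hex h1 ⟨c, ζ, rfl, h2⟩
  generalize Nat.find hex = g at hc0 hmin
  -- the pairs
  have hp0 : 2 * τ ≤ (Finset.univ.filter (fun i => c0 i = 0 ∨ c0 i = k2)).card + (s - 1) * b := by
    by_contra h1
    push Not at h1
    apply hne0
    have h2 := pairJ hs A hI hH hQ 0 (by decide) 1 0
      (fun e => by rw [shr_zero, mul_one])
      (fun e k hk => by
        rw [mul_zero, zero_smul]
        refine Fin.cases (motive := fun k => k ≠ 0 → shr 1 ((e * 1) • z2) 0 (X k) = X k)
          (fun h => absurd rfl h) (fun k _ => ?_) k hk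
        refine Fin.cases ?_ (fun k => ?_) k
        · exact (shr_one _ _).trans (add_zero _)
        · exact shr_succ _ _ _) c0 x h1 ζ0
    have h3 : (fun l => (1 + x l * 0) * ζ0 l) = ζ0 := by
      funext l
      ring
    rw [h3] at h2
    exact h2
  have hp1 : 2 * τ ≤ (Finset.univ.filter (fun i => c0 i = 1 ∨ c0 i = k2)).card + (s - 1) * b := by
    by_contra h1
    push Not at h1
    apply hne0
    have h2 := pairJ hs A hI hH hQ 1 (by decide) 0 1
      (fun e => by rw [shr_one, mul_one])
      (fun e k hk => by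
        rw [mul_zero, zero_smul]
        refine Fin.cases (motive := fun k => k ≠ 1 → shr 1 0 ((e * 1) • z2) (X k) = X k)
          (fun _ => ?_) (fun k => ?_) k hk
        · exact (shr_zero _ _).trans (add_zero _)
        · refine Fin.cases (motive := fun k : Fin (1 + 1) => k.succ ≠ 1 →
            shr 1 0 ((e * 1) • z2) (X k.succ) = X k.succ) (fun h => absurd rfl h)
            (fun k _ => shr_succ _ _ _) k) c0 x h1 (fun l => (x l)⁻¹ * ζ0 l)
    have h3 : (fun l => (0 + x l * 1) * ((x l)⁻¹ * ζ0 l)) = ζ0 := by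
      funext l
      rw [zero_add, mul_one, ← mul_assoc, mul_inv_cancel₀ (hx l), one_mul]
    rw [h3] at h2
    exact h2
  have hcount : (Finset.univ.filter (fun i => c0 i = 0 ∨ c0 i = k2)).card +
      (Finset.univ.filter (fun i => c0 i = 1 ∨ c0 i = k2)).card ≤ D + g := by
    rw [Finset.card_filter, Finset.card_filter, ← Finset.sum_add_distrib, ← hc0]
    calc _ ≤ ∑ i, (1 + zt (c0 i)) := Finset.sum_le_sum fun i _ => zt_pair (c0 i)
      _ = D + ∑ i, zt (c0 i) := by
        rw [Finset.sum_add_distrib, Finset.sum_const, Finset.card_univ, Fintype.card_fin,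
          smul_eq_mul, mul_one]
  -- the extracted form
  obtain ⟨a, e, hae⟩ := coef_ext D g
  obtain ⟨Q, hQdef⟩ : ∃ Q : Sn 1, Q = QL x ζ0 := ⟨_, rfl⟩
  obtain ⟨H, hHdef⟩ : ∃ H : MultilinearMap ℂ (fun _ : Fin D => Sn 1) ℂ, ∀ v, H v =
      ∑ i, a i * A (fun j => scal 1 (e i) (v j)) (fun _ => Q) := by
    refine ⟨∑ i, a i • (((evQ m Q).compMultilinearMap A).compLinearMap
      (fun _ => (scal 1 (e i)).toLinearMap)), fun v => ?_⟩
    rw [sum_apply]
    rfl
  have hXc : ∀ (t : ℂ) (c : Fin D → Fin (1 + 2)) (f : Sn 1 →ₐ[ℂ] Sn 1),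
      A (fun j => f (scal 1 t (X (c j)))) = t ^ (∑ i, zt (c i)) • A (fun j => f (X (c j))) := by
    intro t c f
    simp only [scal_X, map_smul]
    rw [MultilinearMap.map_smul_univ, Finset.prod_pow_eq_pow_sum]
  have hdegc : ∀ c : Fin D → Fin (1 + 2), ∑ i, zt (c i) ≤ D := by
    intro c
    refine (Finset.sum_le_sum fun i _ => zt_le (c i)).trans ?_
    rw [Finset.sum_const, Finset.card_univ, Fintype.card_fin, smul_eq_mul, mul_one]
  have hHX : ∀ c : Fin D → Fin (1 + 2), H (fun i => X (c i)) =
      if g = ∑ i, zt (c i) then A (fun i => X (c i)) (fun _ => Q) else 0 := by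
    intro c
    have h2 := hae (Polynomial.C (A (fun i => X (c i)) (fun _ => Q)) *
      Polynomial.X ^ (∑ i, zt (c i))) ((Polynomial.natDegree_C_mul_X_pow_le _ _).trans (hdegc c))
    rw [Polynomial.coeff_C_mul_X_pow] at h2
    rw [← h2, hHdef]
    refine Finset.sum_congr rfl fun i _ => ?_
    have h3 := hXc (e i) c (AlgHom.id ℂ _)
    simp only [AlgHom.id_apply] at h3
    rw [h3, _root_.smul_apply, smul_eq_mul, Polynomial.eval_mul, Polynomial.eval_C,
      Polynomial.eval_pow, Polynomial.eval_X, mul_comm (e i ^ _)]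
  have hIX : ∀ (α β : ℂ) (c : Fin D → Fin (1 + 2)),
      H (fun i => shr 1 (α • z2) (β • z2) (X (c i))) = H (fun i => X (c i)) := by
    intro α β c
    obtain ⟨p, hpd, hp⟩ := exists_poly ((evQ m Q).compMultilinearMap A)
      (fun i t => scal 1 t (shr 1 (α • z2) (β • z2) (X (c i)))) (fun _ => 1) (by
        intro i
        have hz : ∀ γ : ℂ, γ • z2 ∈ ZZ 1 := fun γ => (ZZ 1).smul_mem _ z2_mem
        refine ⟨fun l => if l = 0 then scal 1 0 (shr 1 (α • z2) (β • z2) (X (c i))) else
          scal 1 1 (shr 1 (α • z2) (β • z2) (X (c i))) -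
            scal 1 0 (shr 1 (α • z2) (β • z2) (X (c i))), fun t => ?_⟩
        rw [Finset.sum_range_succ, Finset.sum_range_one]
        beta_reduce
        rw [if_pos rfl, if_neg one_ne_zero, pow_zero, one_smul, pow_one]
        generalize c i = k
        refine Fin.cases ?_ (fun k => ?_) k
        · rw [shr_zero, map_add, map_add, map_add, scal_zero, scal_zero, scal_zero,
            scal_Z (hz α), scal_Z (hz α), scal_Z (hz α), zero_smul, one_smul, add_zero,
            add_sub_cancel_left]
        · refine Fin.cases ?_ (fun k => ?_) k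
          · have h1 : shr 1 (α • z2) (β • z2) (X (Fin.succ 0)) = X 1 + β • z2 := shr_one _ _
            rw [h1, map_add, map_add, map_add, scal_one, scal_one, scal_one,
              scal_Z (hz β), scal_Z (hz β), scal_Z (hz β), zero_smul, one_smul, add_zero,
              add_sub_cancel_left]
          · rw [shr_succ, scal_succ, scal_succ, scal_succ, zero_smul, one_smul, zero_add,
              sub_zero])
    rw [Finset.sum_const, Finset.card_univ, Fintype.card_fin, smul_eq_mul, mul_one] at hpd
    have hval : H (fun i => shr 1 (α • z2) (β • z2) (X (c i))) = p.coeff g := by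
      rw [← hae p hpd, hHdef]
      refine Finset.sum_congr rfl fun i _ => ?_
      rw [hp]
      rfl
    obtain ⟨q, hq⟩ := poly_exists (A (fun i => X (c i))) (fun _ => ∏ l : Fin b,
      (Polynomial.C (ln 1 (x l) + ζ0 l • z2) -
        Polynomial.X * Polynomial.C ((α + x l * β) • z2) : Polynomial (Sn 1)))
    have hq' : ∀ t : ℂ, q.eval t = A (fun i => X (c i))
        (fun _ => QL x (fun l => ζ0 l + (-(t * α) + x l * (-(t * β))))) := by
      intro t
      rw [hq]
      congr 1
      funext _
      rw [Polynomial.eval_prod, QL]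
      refine Finset.prod_congr rfl fun l _ => ?_
      rw [Polynomial.eval_sub, Polynomial.eval_mul, Polynomial.eval_C, Polynomial.eval_C,
        Polynomial.eval_X, ← Algebra.smul_def, smul_smul, add_smul, ← add_assoc, sub_eq_add_neg,
        ← neg_smul]
      congr 2
      ring
    have hpq : p = Polynomial.X ^ (∑ i, zt (c i)) * q := by
      apply Polynomial.funext
      intro t
      rw [Polynomial.eval_mul, Polynomial.eval_pow, Polynomial.eval_X, hp, hq']
      change A (fun i => scal 1 t (shr 1 (α • z2) (β • z2) (X (c i)))) (fun _ => Q) = _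
      simp only [scal_shr_X]
      rw [hXc, _root_.smul_apply, smul_eq_mul,
        ← hI ((t * α) • z2) ((ZZ 1).smul_mem _ z2_mem) ((t * β) • z2)
          ((ZZ 1).smul_mem _ z2_mem) (fun i => X (c i)) (fun _ => X_mem_linS _)
          (fun _ => QL x (fun l => ζ0 l + (-(t * α) + x l * (-(t * β)))))
          (fun _ => QL_mem _ _), QL_shr]
      congr 3
      funext _
      rw [hQdef]
      congr 1
      funext l
      ring
    rw [hval, hHX, hpq, Polynomial.coeff_X_pow_mul']
    rcases lt_trichotomy (∑ i, zt (c i)) g with h1 | h1 | h1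
    · have hq0 : q = 0 := by
        apply Polynomial.funext
        intro t
        rw [hq', Polynomial.eval_zero]
        exact hmin c _ h1
      rw [if_pos h1.le, if_neg h1.ne', hq0, Polynomial.coeff_zero]
    · rw [if_pos h1.le, if_pos h1.symm, h1, Nat.sub_self, Polynomial.coeff_zero_eq_eval_zero, hq',
        hQdef]
      congr 1
      funext _
      congr 1
      funext l
      ring
    · rw [if_neg (not_le.2 h1), if_neg h1.ne]
  have hInvH : ∀ z ∈ ZZ 1, ∀ w ∈ ZZ 1, ∀ v : Fin D → Sn 1, (∀ i, v i ∈ linS (1 + 2)) →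
      H (fun i => shr 1 z w (v i)) = H v := by
    intro z hz w hw v hv
    obtain ⟨α, rfl⟩ := ZZ1_exists hz
    obtain ⟨β, rfl⟩ := ZZ1_exists hw
    rw [← sub_eq_zero]
    change (H.compLinearMap (fun _ => (shr 1 (α • z2) (β • z2)).toLinearMap) - H) v = 0
    apply multilinear_zero_of_span _ (Set.range (fun i : Fin (1 + 2) => (X i : Sn 1)))
    · intro w hw
      choose c hc using hw
      have hw' : w = fun b => X (c b) := by
        funext b; exact (hc b).symm
      rw [hw']
      change H (fun i => shr 1 (α • z2) (β • z2) (X (c i))) - H (fun i => X (c i)) = 0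
      rw [hIX, sub_self]
    · exact hv
  have hScalH : ∀ r : ℂ, r ≠ 0 → ∀ v : Fin D → Sn 1, (∀ i, v i ∈ linS (1 + 2)) →
      H (fun i => scal 1 r (v i)) = r ^ g * H v := by
    intro r _ v hv
    rw [← sub_eq_zero]
    change (H.compLinearMap (fun _ => (scal 1 r).toLinearMap) - r ^ g • H) v = 0
    apply multilinear_zero_of_span _ (Set.range (fun i : Fin (1 + 2) => (X i : Sn 1)))
    · intro w hw
      choose c hc using hw
      have hw' : w = fun b => X (c b) := by
        funext b; exact (hc b).symm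
      rw [hw']
      change H (fun i => scal 1 r (X (c i))) - r ^ g * H (fun i => X (c i)) = 0
      simp only [scal_X]
      rw [MultilinearMap.map_smul_univ, Finset.prod_pow_eq_pow_sum, smul_eq_mul, hHX]
      split_ifs with h1
      · rw [← h1, sub_self]
      · rw [mul_zero, mul_zero, sub_self]
    · exact hv
  have hH0 : H (fun i => X (c0 i)) ≠ 0 := by
    rw [hHX, if_pos hc0.symm, hQdef]
    exact hne0
  have hg3 : 3 * g ≤ D := by
    by_contra h1
    exact hH0 (third_lin (n := 1) (τ := g) H hInvH hScalH (by omega) _ (fun _ => X_mem_linS _))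
  omega

end Core

/-- `R` of products of linear forms, as a multilinear map of all the factors. -/
noncomputable def facR {h m : ℕ} (d : Fin h → ℕ) (R : Fam 1 h m) :
    MultilinearMap ℂ (fun _ : Fin (∑ i, d i) => Sn 1) (Fm 1 m) where
  toFun v := R (fun i => ∏ j : Fin (d i), v (finSigmaFinEquiv ⟨i, j⟩))
  map_update_add' := by
    intro _ v q x y
    obtain ⟨⟨i₀, j₀⟩, rfl⟩ := finSigmaFinEquiv.surjective q
    rw [fac_key, fac_key, fac_key, add_mul, MultilinearMap.map_update_add]
  map_update_smul' := by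
    intro _ v q c x
    obtain ⟨⟨i₀, j₀⟩, rfl⟩ := finSigmaFinEquiv.surjective q
    rw [fac_key, fac_key, smul_mul_assoc, MultilinearMap.map_update_smul]

lemma facR_apply {h m : ℕ} (d : Fin h → ℕ) (R : Fam 1 h m) (v : Fin (∑ i, d i) → Sn 1) :
    facR d R v = R (fun i => ∏ j : Fin (d i), v (finSigmaFinEquiv ⟨i, j⟩)) := rfl

/-- **Row J1.** -/
theorem joint {h m b s τ : ℕ} (hs : 1 ≤ s) (_hb : 1 ≤ b) (d : Fin h → ℕ) (R : Fam 1 h m)
    (hI : InvR b d R) (hH : HomR b d τ R) (hQ : ∀ B, DgV d B → QQ s b (R B))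
    (hlt : 2 * ∑ i, d i + 3 * ((s - 1) * b) < 6 * τ) :
    ∀ B, DgV d B → IsK (linS (1 + 2)) b (R B) := by
  classical
  have hmem : ∀ v : Fin (∑ i, d i) → Sn 1, (∀ b, v b ∈ linS (1 + 2)) →
      DgV d (fun i => ∏ j : Fin (d i), v (finSigmaFinEquiv ⟨i, j⟩)) := by
    intro v hv i
    exact prod_mem_pow _ _ (fun j => hv _)
  -- generic columns
  have h1 : ∀ x : Fin b → ℂ, (∀ l, x l ≠ 0) → ∀ ζ : Fin b → ℂ, ∀ B, DgV d B →
      R B (fun _ => QL x ζ) = 0 := by
    intro x hx ζ B hB
    change ((evQ m (QL x ζ)).compMultilinearMap R) B = 0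
    apply zero_of_span_fam ((evQ m (QL x ζ)).compMultilinearMap R)
      (fun i => Set.range (fun c : Fin (d i) → Fin (1 + 2) => ∏ j, (X (c j) : Sn 1)))
    · intro w hw
      choose c hc using hw
      have hw' : w = fun i => ∏ j : Fin (d i),
          (X (c (finSigmaFinEquiv.symm (finSigmaFinEquiv ⟨i, j⟩)).1
            (finSigmaFinEquiv.symm (finSigmaFinEquiv ⟨i, j⟩)).2) : Sn 1) := by
        funext i
        rw [← hc i]
        refine Finset.prod_congr rfl fun j _ => ?_
        rw [Equiv.symm_apply_apply]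
      rw [hw']
      refine jointA (b := b) (s := s) (τ := τ) hs (facR d R) ?_ ?_ ?_ hlt x hx
        (fun q => c (finSigmaFinEquiv.symm q).1 (finSigmaFinEquiv.symm q).2) ζ
      · intro z hz w hw v hv P hP
        rw [facR_apply, facR_apply, ← hI z hz w hw _ (hmem v hv) P hP]
        congr 2
        funext i
        rw [map_prod]
      · intro e he v hv P hP
        rw [facR_apply, facR_apply, ← hH e he _ (hmem v hv) P hP]
        congr 2
        funext i
        rw [map_prod]
      · intro v hv
        exact hQ _ (hmem v hv)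
    · intro i
      exact span_pow_eq _ _ (hB i)
  intro B hB
  apply isK_of_chart
  intro x z hz
  choose ζ hζ using fun j => ZZ1_exists (hz j)
  obtain ⟨p, hp⟩ := poly_exists (R B) (fun _ => ∏ l : Fin b,
    (Polynomial.C (ln 1 (x l) + ζ l • z2) +
      Polynomial.X * Polynomial.C (X 1) : Polynomial (Sn 1)))
  have hp' : ∀ e : ℂ, p.eval e = R B (fun _ => QL (fun l => x l + e) ζ) := by
    intro e
    rw [hp]
    congr 1
    funext _
    rw [Polynomial.eval_prod, QL]
    refine Finset.prod_congr rfl fun l _ => ?_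
    rw [Polynomial.eval_add, Polynomial.eval_mul, Polynomial.eval_C, Polynomial.eval_C,
      Polynomial.eval_X, ← Algebra.smul_def, ln, ln, add_smul]
    abel
  have hp0 : p * ∏ l : Fin b, (Polynomial.X + Polynomial.C (x l)) = 0 := by
    apply Polynomial.funext
    intro e
    rw [Polynomial.eval_mul, Polynomial.eval_prod, Polynomial.eval_zero]
    by_cases h2 : ∀ l, x l + e ≠ 0
    · rw [hp', h1 _ h2 ζ B hB, zero_mul]
    · push Not at h2
      obtain ⟨l, hl⟩ := h2
      rw [Finset.prod_eq_zero (Finset.mem_univ l), mul_zero]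
      rw [Polynomial.eval_add, Polynomial.eval_X, Polynomial.eval_C, add_comm]
      exact hl
  have hp1 : p = 0 := by
    rcases mul_eq_zero.1 hp0 with h2 | h2
    · exact h2
    · exact absurd h2 (Finset.prod_ne_zero_iff.2 fun l _ => Polynomial.X_add_C_ne_zero _)
  have h3 := hp' 0
  rw [hp1, Polynomial.eval_zero] at h3
  simp only [add_zero] at h3
  rw [h3, QL]
  congr 1
  funext _
  refine Finset.prod_congr rfl fun l _ => ?_
  rw [hζ l]

end Vale.Agent.P181.TM
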