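import Vale.Agent.P181.R2.H280.NDefs

/-!
P181, all numbers of rows, row N4: the curried form.
-/

set_option autoImplicit false

open MvPolynomial

namespace Vale.Agent.P181.TN

open Vale.Agent.P181 Vale.Agent.P181.H536 Vale.Agent.P181.H280

variable {n : ℕ}

/-- the scaling identity of the curried form -/
lemma curry_tau {m b k t : ℕ} (hk : k ≤ b) (F : Fm n (m + 1)) (hH : Hom b t F) {w : Sn n}
    (hw : w ∈ ZZ n ^ k) {A : Sn n} (hA : A ∈ U2 n ^ (b - k)) (c : ℂ) (hc : c ≠ 0)
    (P : Fin m → Sn n) (hP : Dg b P) :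
    c ^ k * F.curryLeft (w * A) (fun i => scal n c (P i)) =
      c ^ t * F.curryLeft (w * A) P := by
  have h1 := hH c hc (Fin.cons (w * A) P) (by
    intro i
    refine Fin.cases ?_ (fun j => ?_) i
    · simpa using wA_mem hk hw hA
    · simpa using hP j)
  have h2 : (fun i : Fin (m + 1) => scal n c ((Fin.cons (w * A) P : Fin (m + 1) → Sn n) i)) =
      Fin.cons (c ^ k • (w * A)) (fun i => scal n c (P i)) := by
    funext i
    refine Fin.cases ?_ (fun j => ?_) i
    · simp only [Fin.cons_zero]
      rw [map_mul, scal_ZZ_pow hw, scal_U2 c hA, smul_mul_assoc]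
    · simp only [Fin.cons_succ]
  rw [h2] at h1
  have h3 := (F.curryLeft).map_smul (c ^ k) (w * A)
  have h4 : F (Fin.cons (c ^ k • (w * A)) (fun i => scal n c (P i))) =
      c ^ k * F.curryLeft (w * A) (fun i => scal n c (P i)) := by
    rw [← MultilinearMap.curryLeft_apply, h3, smul_apply, smul_eq_mul]
  rw [h4] at h1
  rw [h1, MultilinearMap.curryLeft_apply]

/-- **N4 (b)** -/
theorem curry_hom {m b k t : ℕ} (hk : k ≤ b) (hkt : k ≤ t) (F : Fm n (m + 1)) (hH : Hom b t F)
    {w : Sn n} (hw : w ∈ ZZ n ^ k) {A : Sn n} (hA : A ∈ U2 n ^ (b - k)) :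
    Hom b (t - k) (F.curryLeft (w * A)) := by
  intro c hc P hP
  have h1 := curry_tau hk F hH hw hA c hc P hP
  have hck : c ^ k ≠ 0 := pow_ne_zero _ hc
  apply mul_left_cancel₀ hck
  rw [h1, ← mul_assoc, ← pow_add, Nat.add_sub_cancel' hkt]

/-- the action of the scaling on one form is polynomial -/
lemma scal_poly (P : Sn n) :
    ∃ p : Polynomial (Sn n), ∀ c : ℂ, p.eval (algebraMap ℂ (Sn n) c) = scal n c P := by
  let g : Sn n →ₐ[ℂ] Polynomial (Sn n) := aeval (Fin.cons (Polynomial.C (X 0))
    (Fin.cons (Polynomial.C (X 1)) (fun i : Fin n => Polynomial.C (X i.succ.succ) * Polynomial.X)))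
  refine ⟨g P, fun c => ?_⟩
  have h : ((Polynomial.aeval (algebraMap ℂ (Sn n) c) :
      Polynomial (Sn n) →ₐ[Sn n] Sn n).restrictScalars ℂ).comp g = scal n c := by
    apply MvPolynomial.algHom_ext
    intro i
    rw [AlgHom.comp_apply, aeval_X, AlgHom.restrictScalars_apply]
    refine Fin.cases ?_ (fun i => ?_) i
    · rw [Fin.cons_zero, Polynomial.aeval_C, scal_zero]
      rfl
    · refine Fin.cases ?_ (fun i => ?_) i
      · rw [Fin.cons_succ, Fin.cons_zero, Polynomial.aeval_C]
        exact (scal_one c).symm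
      · rw [Fin.cons_succ, Fin.cons_succ, map_mul, Polynomial.aeval_C, Polynomial.aeval_X,
          scal_succ, Algebra.smul_def, mul_comm]
        rfl
  have h2 := congrArg (fun g : Sn n →ₐ[ℂ] Sn n => g P) h
  simp only [AlgHom.comp_apply, AlgHom.restrictScalars_apply] at h2
  rw [← h2, Polynomial.coe_aeval_eq_eval]

/-- **N4 (c)** -/
theorem curry_zero {m b k t : ℕ} (hk : k ≤ b) (hkt : t < k) (F : Fm n (m + 1)) (hH : Hom b t F)
    {w : Sn n} (hw : w ∈ ZZ n ^ k) {A : Sn n} (hA : A ∈ U2 n ^ (b - k)) :
    Van b (F.curryLeft (w * A)) := by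
  intro P hP
  choose R hR using fun i => scal_poly (P i)
  obtain ⟨q, hq⟩ := poly_exists (F.curryLeft (w * A)) R
  have h1 : Polynomial.X ^ (k - t) * q = Polynomial.C (F.curryLeft (w * A) P) := by
    apply Polynomial.eq_of_infinite_eval_eq
    apply Set.Infinite.mono (s := ({0} : Set ℂ)ᶜ)
    · intro c hc
      have hc0 : c ≠ 0 := hc
      rw [Set.mem_ofPred_eq, Polynomial.eval_mul, Polynomial.eval_pow, Polynomial.eval_X,
        Polynomial.eval_C, hq]
      simp only [hR]
      have h2 := curry_tau hk F hH hw hA c hc0 P hP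
      have h3 : c ^ k = c ^ t * c ^ (k - t) := by rw [← pow_add, Nat.add_sub_cancel' hkt.le]
      rw [h3, mul_assoc] at h2
      exact mul_left_cancel₀ (pow_ne_zero t hc0) h2
    · exact (Set.finite_singleton (0 : ℂ)).infinite_compl
  have h2 := congrArg (Polynomial.eval (0 : ℂ)) h1
  rw [Polynomial.eval_mul, Polynomial.eval_pow, Polynomial.eval_X, Polynomial.eval_C,
    zero_pow (by omega), zero_mul] at h2
  exact h2.symm

lemma sh_expand {z : Sn n} : ∀ (N : ℕ) (A : Sn n), A ∈ U2 n ^ N → ∃ B : ℕ → Sn n,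
    (∀ j, j < N → B j ∈ U2 n ^ (N - (j + 1))) ∧
      sh n z A = A + ∑ j ∈ Finset.range N, z ^ (j + 1) * B j := by
  intro N
  induction N with
  | zero =>
    intro A hA
    rw [pow_zero, Submodule.mem_one] at hA
    obtain ⟨r, rfl⟩ := hA
    refine ⟨fun _ => 0, fun j hj => absurd hj (Nat.not_lt_zero j), ?_⟩
    rw [AlgHom.commutes, Finset.range_zero, Finset.sum_empty, add_zero]
  | succ N ih =>
    intro A hA
    rw [pow_succ] at hA
    induction hA using Submodule.mul_induction_on' with
    | mem_mul_mem x hx y hy =>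
      obtain ⟨B, hB, hB'⟩ := ih x hx
      obtain ⟨α, β, hαβ⟩ := Submodule.mem_span_pair.1 hy
      have hy' : sh n z y = y + α • z := by
        rw [← hαβ, map_add, map_smul, map_smul, sh_X0, sh_X1, smul_add]
        abel
      refine ⟨fun j => (if j < N then B j * y else 0) + α • (if j = 0 then x else B (j - 1)),
        ?_, ?_⟩
      · intro j hj
        have hj2 : N + 1 - (j + 1) = N - j := by omega
        rw [hj2]
        refine Submodule.add_mem _ ?_ (Submodule.smul_mem _ _ ?_)
        · split_ifs with h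
          · have h3 : N - j = N - (j + 1) + 1 := by omega
            rw [h3, pow_succ]
            exact Submodule.mul_mem_mul (hB j h) hy
          · exact Submodule.zero_mem _
        · split_ifs with h
          · subst h
            exact hx
          · have h3 : N - j = N - (j - 1 + 1) := by omega
            rw [h3]
            exact hB (j - 1) (by omega)
      · have hs1 : ∑ j ∈ Finset.range (N + 1), z ^ (j + 1) * (if j < N then B j * y else 0) =
            ∑ j ∈ Finset.range N, z ^ (j + 1) * (B j * y) := by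
          rw [Finset.sum_range_succ, if_neg (lt_irrefl N), mul_zero, add_zero]
          exact Finset.sum_congr rfl fun j hj => by rw [if_pos (Finset.mem_range.1 hj)]
        have hs2 : ∑ j ∈ Finset.range (N + 1), z ^ (j + 1) *
            (α • (if j = 0 then x else B (j - 1)) : Sn n) =
            α • (z * (x + ∑ j ∈ Finset.range N, z ^ (j + 1) * B j)) := by
          rw [Finset.sum_range_succ']
          simp only [Nat.add_eq_zero_iff, one_ne_zero, and_false, if_false, if_true,
            Nat.add_sub_cancel, mul_smul_comm, zero_add, pow_one]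
          rw [← Finset.smul_sum, ← smul_add, mul_add, Finset.mul_sum, add_comm (z * x)]
          congr 2
          exact Finset.sum_congr rfl fun j _ => by ring
        simp only [mul_add, Finset.sum_add_distrib]
        rw [hs1, hs2, map_mul, hB', hy', add_mul, mul_add, mul_add, Finset.sum_mul]
        simp only [mul_smul_comm, mul_add, smul_add]
        have hs3 : ∑ i ∈ Finset.range N, z ^ (i + 1) * B i * y =
            ∑ i ∈ Finset.range N, z ^ (i + 1) * (B i * y) :=
          Finset.sum_congr rfl fun j _ => mul_assoc _ _ _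
        rw [hs3, mul_comm x z, mul_comm (∑ i ∈ Finset.range N, z ^ (i + 1) * B i) z]
        abel
    | add x _ y _ hx hy =>
      obtain ⟨B, hB, hB'⟩ := hx
      obtain ⟨B₂, hB₂, hB₂'⟩ := hy
      refine ⟨fun j => B j + B₂ j, fun j hj => Submodule.add_mem _ (hB j hj) (hB₂ j hj), ?_⟩
      rw [map_add, hB', hB₂']
      simp only [mul_add, Finset.sum_add_distrib]
      abel

/-- **N4 (a)** -/
theorem curry_inv {m b k : ℕ} (hk : k ≤ b) (F : Fm n (m + 1)) (hI : Inv b F) (hT : Top b k F)
    {w : Sn n} (hw : w ∈ ZZ n ^ k) {A : Sn n} (hA : A ∈ U2 n ^ (b - k)) :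
    Inv b (F.curryLeft (w * A)) := by
  intro z hz P hP
  have hP' : Dg b (fun i => sh n z (P i)) := fun i => sh_mem hz (hP i)
  obtain ⟨B, hB, hB'⟩ := sh_expand (z := z) (b - k) A hA
  have h1 := hI z hz (Fin.cons (w * A) P) (by
    intro i
    refine Fin.cases ?_ (fun j => ?_) i
    · simpa using wA_mem hk hw hA
    · simpa using hP j)
  have h2 : (fun i : Fin (m + 1) => sh n z ((Fin.cons (w * A) P : Fin (m + 1) → Sn n) i)) =
      Fin.cons (sh n z (w * A)) (fun i => sh n z (P i)) := by
    funext i
    refine Fin.cases ?_ (fun j => ?_) i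
    · simp only [Fin.cons_zero]
    · simp only [Fin.cons_succ]
  rw [h2, ← MultilinearMap.curryLeft_apply, ← MultilinearMap.curryLeft_apply] at h1
  have h3 : sh n z (w * A) = w * A + ∑ j ∈ Finset.range (b - k), (w * z ^ (j + 1)) * B j := by
    rw [map_mul, sh_ZZ_pow hw, hB', mul_add, Finset.mul_sum]
    congr 1
    exact Finset.sum_congr rfl fun j _ => by rw [← mul_assoc]
  rw [h3, map_add, map_sum, add_apply, sum_apply] at h1
  rw [← h1]
  have h4 : ∑ j ∈ Finset.range (b - k), (F.curryLeft ((w * z ^ (j + 1)) * B j))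
      (fun i => sh n z (P i)) = 0 := by
    apply Finset.sum_eq_zero
    intro j hj
    have hj' := Finset.mem_range.1 hj
    refine hT (k + (j + 1)) (by omega) (by omega) _ ?_ (B j) ?_ _ hP'
    · rw [pow_add]
      exact Submodule.mul_mem_mul hw (Submodule.pow_mem_pow _ hz _)
    · have h5 : b - (k + (j + 1)) = b - k - (j + 1) := by omega
      rw [h5]
      exact hB j hj'
  rw [h4, add_zero]

end Vale.Agent.P181.TN
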