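import Vale.Agent.P181.R2.H556.ThreeDefs

/-!
P181, row RA of helper556's plan (three rows): the A-step, assembled from the rows R4 (curry, heavy,
light), R5 (special) and R6a (descent), which are hypotheses here; and `base0`, `lemI`.
-/

set_option autoImplicit false

open MvPolynomial

namespace Vale.Agent.P181.T3R

open Vale.Agent.P181 Vale.Agent.P181.H536 Vale.Agent.P181.H280

/-- no points: a form of positive weight is zero -/
theorem base0 {s b t : ℕ} (ht : 1 ≤ t) : LL s 0 b t := by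
  intro F _ _ hH _ P hP
  have h1 := hH 2 two_ne_zero P hP
  rw [Subsingleton.elim (fun i => tau 2 (P i)) P] at h1
  have h2 : ((2 : ℂ) ^ t - 1) * F P = 0 := by rw [sub_mul, one_mul, ← h1, sub_self]
  rcases mul_eq_zero.1 h2 with h3 | h3
  · exfalso
    have h4 : (2 : ℂ) ^ t = 1 := sub_eq_zero.1 h3
    have h5 : ((2 ^ t : ℕ) : ℂ) = ((1 : ℕ) : ℂ) := by push_cast; exact h4
    have h6 : 2 ^ t = 1 := by exact_mod_cast h5
    have h7 : 1 < 2 ^ t := Nat.one_lt_two_pow (by omega)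
    omega
  · exact h3

/-- `LL` from Lemma I -/
theorem lemI_of
    (lemmaI : ∀ {a b s t : ℕ}, 1 ≤ b → 1 ≤ s → (s - 1) * b < 2 * t → ∀ F : Fm a,
      Inv b F → Hom b t F → QQ s b F → IsK (linS 3) b F)
    {r a b t : ℕ} (hb : 1 ≤ b) (hK : KK a b t) (h : r * b < 2 * t) : LL (r + 1) a b t := by
  intro F hs hI hH hQ
  exact hK F hs hI hH (lemmaI hb (by omega) (by simpa using h) F hI hH hQ)

/-- **the A-step** from the rows -/
theorem astep_of
    (curry_inv : ∀ {m b k : ℕ}, k ≤ b → ∀ F : Fm (m + 1), Inv b F → Top b k F → ∀ {A : S3},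
      A ∈ U2 ^ (b - k) → Inv b (F.curryLeft (X 2 ^ k * A)))
    (curry_hom : ∀ {m b k t : ℕ}, k ≤ b → k ≤ t → ∀ F : Fm (m + 1), Hom b t F → ∀ {A : S3},
      A ∈ U2 ^ (b - k) → Hom b (t - k) (F.curryLeft (X 2 ^ k * A)))
    (curry_zero : ∀ {m b k t : ℕ}, k ≤ b → t < k → ∀ F : Fm (m + 1), Hom b t F → ∀ {A : S3},
      A ∈ U2 ^ (b - k) → Van b (F.curryLeft (X 2 ^ k * A)))
    (heavy : ∀ {m b k s : ℕ}, 1 ≤ b → 1 ≤ s → k ≤ b → m + 2 ≤ k + s → ∀ F : Fm (m + 1),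
      QQ s b F → ∀ {A : S3}, A ∈ U2 ^ (b - k) → QQ (s - 1) b (F.curryLeft (X 2 ^ k * A)))
    (light : ∀ {m b k s : ℕ}, 1 ≤ s → k < b → m < b - k + s → ∀ F : Fm (m + 1), QQ s b F →
      Top b k F → ∀ {A : S3}, A ∈ U2 ^ (b - k) → QQ s b (F.curryLeft (X 2 ^ k * A)))
    (special : ∀ {m b t : ℕ}, 1 ≤ t → t ≤ b → ∀ F : Fm (m + 1), IsSymm F → Inv b F → Hom b t F →
      (∀ A ∈ U2 ^ (b - (t - 1)), QQ 1 b (F.curryLeft (X 2 ^ (t - 1) * A))) → ∀ {A : S3},
      A ∈ U2 ^ (b - t) → Van b (F.curryLeft (X 2 ^ t * A)))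
    (descent : ∀ {m b : ℕ} (F : Fm (m + 1)), (∀ k, k ≤ b → Top b k F → ∀ A ∈ U2 ^ (b - k),
      Van b (F.curryLeft (X 2 ^ k * A))) → Van b F)
    {r a b t : ℕ} (hr : 1 ≤ r) (hb : 1 ≤ b) (hab : 2 * a ≤ b)
    (heavy' : ∀ k, a + 1 ≤ k + r → k ≤ b → k < t → LL r a b (t - k))
    (light' : ∀ k, k + r ≤ a → k ≤ t → LL (r + 1) a b (t - k))
    (ht : b < t ∨ (r = 1 ∧ a + 1 ≤ t)) : LL (r + 1) (a + 1) b t := by
  intro F hsy hI hH hQ
  apply descent F
  intro k hkb hT A hA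
  rcases lt_or_ge t k with htk | hkt
  · exact curry_zero hkb htk F hH hA
  have hs' : IsSymm (F.curryLeft (X 2 ^ k * A)) := hsy.curryLeft _
  have hI' := curry_inv hkb F hI hT hA
  have hH' := curry_hom hkb hkt F hH hA
  by_cases hh : a + 1 ≤ k + r
  · rcases Nat.lt_or_ge k t with hk | hk
    · have hQ' := heavy hb (by omega : 1 ≤ r + 1) hkb (by omega) F hQ hA
      rw [Nat.add_sub_cancel] at hQ'
      exact heavy' k hh hkb hk _ hs' hI' hH' hQ'
    · have hkt' : k = t := le_antisymm hkt hk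
      subst hkt'
      rcases ht with ht | ⟨rfl, hat⟩
      · omega
      · refine special (by omega) hkb F hsy hI hH ?_ hA
        intro B hB
        have hQ' := heavy hb (by omega : 1 ≤ 1 + 1) (by omega : k - 1 ≤ b) (by omega) F hQ hB
        simpa using hQ'
  · have hQ' := light (by omega : 1 ≤ r + 1) (by omega : k < b) (by omega) F hQ hT hA
    exact light' k (by omega) hkt _ hs' hI' hH' hQ'

end Vale.Agent.P181.T3R
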