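import Vale.Agent.P181.R2.H556.ThreeDefs

/-!
P181, row R4 (b), (c) of helper556's plan: the weight of the curried form.
-/

set_option autoImplicit false

open MvPolynomial

namespace Vale.Agent.P181.T3R

open Vale.Agent.P181 Vale.Agent.P181.H536 Vale.Agent.P181.H280

/-- the scaling identity of the curried form -/
lemma curry_tau {m b k t : ℕ} (hk : k ≤ b) (F : Fm (m + 1)) (hH : Hom b t F) {A : S3}
    (hA : A ∈ U2 ^ (b - k)) (c : ℂ) (hc : c ≠ 0) (P : Fin m → S3) (hP : Dg b P) :
    c ^ k * F.curryLeft (X 2 ^ k * A) (fun i => tau c (P i)) =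
      c ^ t * F.curryLeft (X 2 ^ k * A) P := by
  have h1 := hH c hc (Fin.cons (X 2 ^ k * A) P) (by
    intro i
    refine Fin.cases ?_ (fun j => ?_) i
    · simpa using zA_mem hk hA
    · simpa using hP j)
  have h2 : (fun i : Fin (m + 1) => tau c ((Fin.cons (X 2 ^ k * A) P : Fin (m + 1) → S3) i)) =
      Fin.cons (c ^ k • (X 2 ^ k * A)) (fun i => tau c (P i)) := by
    funext i
    refine Fin.cases ?_ (fun j => ?_) i
    · simp only [Fin.cons_zero]
      rw [map_mul, map_pow, tau_X2, tau_U2 c hA, smul_pow, smul_mul_assoc]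
    · simp only [Fin.cons_succ]
  rw [h2] at h1
  have h3 := (F.curryLeft).map_smul (c ^ k) (X 2 ^ k * A)
  have h4 : F (Fin.cons (c ^ k • (X 2 ^ k * A)) (fun i => tau c (P i))) =
      c ^ k * F.curryLeft (X 2 ^ k * A) (fun i => tau c (P i)) := by
    rw [← MultilinearMap.curryLeft_apply, h3, smul_apply, smul_eq_mul]
  rw [h4] at h1
  rw [h1, MultilinearMap.curryLeft_apply]

/-- **R4 (b)** -/
theorem curry_hom {m b k t : ℕ} (hk : k ≤ b) (hkt : k ≤ t) (F : Fm (m + 1)) (hH : Hom b t F)
    {A : S3} (hA : A ∈ U2 ^ (b - k)) : Hom b (t - k) (F.curryLeft (X 2 ^ k * A)) := by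
  intro c hc P hP
  have h1 := curry_tau hk F hH hA c hc P hP
  have hck : c ^ k ≠ 0 := pow_ne_zero _ hc
  apply mul_left_cancel₀ hck
  rw [h1, ← mul_assoc, ← pow_add, Nat.add_sub_cancel' hkt]

/-- the action of the scaling on one form is polynomial -/
lemma tau_poly (P : S3) :
    ∃ p : Polynomial S3, ∀ c : ℂ, p.eval (algebraMap ℂ S3 c) = tau c P := by
  refine ⟨(aeval ![Polynomial.C (X 0), Polynomial.C (X 1),
    Polynomial.C (X 2) * Polynomial.X] P : Polynomial S3), fun c => ?_⟩
  have h : ((Polynomial.aeval (algebraMap ℂ S3 c) : Polynomial S3 →ₐ[S3] S3).restrictScalars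
      ℂ).comp (aeval ![Polynomial.C (X 0), Polynomial.C (X 1),
        Polynomial.C (X 2) * Polynomial.X] : S3 →ₐ[ℂ] Polynomial S3) = tau c := by
    apply MvPolynomial.algHom_ext
    intro i
    rw [AlgHom.comp_apply, aeval_X, AlgHom.restrictScalars_apply]
    fin_cases i
    · change Polynomial.aeval (algebraMap ℂ S3 c) (Polynomial.C (X 0) : Polynomial S3) = tau c (X 0)
      rw [Polynomial.aeval_C, tau_X0]
      rfl
    · change Polynomial.aeval (algebraMap ℂ S3 c) (Polynomial.C (X 1) : Polynomial S3) = tau c (X 1)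
      rw [Polynomial.aeval_C, tau_X1]
      rfl
    · change Polynomial.aeval (algebraMap ℂ S3 c)
        (Polynomial.C (X 2) * Polynomial.X : Polynomial S3) = tau c (X 2)
      rw [map_mul, Polynomial.aeval_C, Polynomial.aeval_X, tau_X2, Algebra.smul_def, mul_comm]
      rfl
  have h2 := congrArg (fun g : S3 →ₐ[ℂ] S3 => g P) h
  simp only [AlgHom.comp_apply, AlgHom.restrictScalars_apply] at h2
  rw [← h2, Polynomial.coe_aeval_eq_eval]

/-- **R4 (c)** -/
theorem curry_zero {m b k t : ℕ} (hk : k ≤ b) (hkt : t < k) (F : Fm (m + 1)) (hH : Hom b t F)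
    {A : S3} (hA : A ∈ U2 ^ (b - k)) : Van b (F.curryLeft (X 2 ^ k * A)) := by
  intro P hP
  choose R hR using fun i => tau_poly (P i)
  obtain ⟨q, hq⟩ := poly_exists (F.curryLeft (X 2 ^ k * A)) R
  have h1 : Polynomial.X ^ (k - t) * q = Polynomial.C (F.curryLeft (X 2 ^ k * A) P) := by
    apply Polynomial.eq_of_infinite_eval_eq
    apply Set.Infinite.mono (s := ({0} : Set ℂ)ᶜ)
    · intro c hc
      have hc0 : c ≠ 0 := hc
      rw [Set.mem_ofPred_eq, Polynomial.eval_mul, Polynomial.eval_pow, Polynomial.eval_X,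
        Polynomial.eval_C, hq]
      simp only [hR]
      have h2 := curry_tau hk F hH hA c hc0 P hP
      have h3 : c ^ k = c ^ t * c ^ (k - t) := by rw [← pow_add, Nat.add_sub_cancel' hkt.le]
      rw [h3, mul_assoc] at h2
      exact mul_left_cancel₀ (pow_ne_zero t hc0) h2
    · exact (Set.finite_singleton (0 : ℂ)).infinite_compl
  have h2 := congrArg (Polynomial.eval (0 : ℂ)) h1
  rw [Polynomial.eval_mul, Polynomial.eval_pow, Polynomial.eval_X, Polynomial.eval_C,
    zero_pow (by omega), zero_mul] at h2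
  exact h2.symm

end Vale.Agent.P181.T3R
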