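import Vale.Agent.P181.R2.H556.ThreeDefs

/-!
P181, row R4 (a) of helper556's plan: the top coefficient of a shear invariant form is shear
invariant.
-/

set_option autoImplicit false

open MvPolynomial

namespace Vale.Agent.P181.T3R

open Vale.Agent.P181 Vale.Agent.P181.H536 Vale.Agent.P181.H280

lemma sh_expand (ε : ℂ) : ∀ (n : ℕ) (A : S3), A ∈ U2 ^ n → ∃ B : ℕ → S3,
    (∀ j, j < n → B j ∈ U2 ^ (n - (j + 1))) ∧
      sh ε A = A + ∑ j ∈ Finset.range n, X 2 ^ (j + 1) * B j := by
  intro n
  induction n with
  | zero =>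
    intro A hA
    rw [pow_zero, Submodule.mem_one] at hA
    obtain ⟨r, rfl⟩ := hA
    refine ⟨fun _ => 0, fun j hj => absurd hj (Nat.not_lt_zero j), ?_⟩
    rw [AlgHom.commutes, Finset.range_zero, Finset.sum_empty, add_zero]
  | succ n ih =>
    intro A hA
    rw [pow_succ] at hA
    induction hA using Submodule.mul_induction_on' with
    | mem_mul_mem x hx y hy =>
      obtain ⟨B, hB, hB'⟩ := ih x hx
      obtain ⟨α, β, hαβ⟩ := Submodule.mem_span_pair.1 hy
      have hy' : sh ε y = y + (α * ε) • X 2 := by
        rw [← hαβ, map_add, map_smul, map_smul, sh_X0, sh_X1, smul_add, smul_smul]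
        abel
      refine ⟨fun j => (if j < n then B j * y else 0) + (α * ε) • (if j = 0 then x else B (j - 1)),
        ?_, ?_⟩
      · intro j hj
        have hj2 : n + 1 - (j + 1) = n - j := by omega
        rw [hj2]
        refine Submodule.add_mem _ ?_ (Submodule.smul_mem _ _ ?_)
        · split_ifs with h
          · have h3 : n - j = n - (j + 1) + 1 := by omega
            rw [h3, pow_succ]
            exact Submodule.mul_mem_mul (hB j h) hy
          · exact Submodule.zero_mem _
        · split_ifs with h
          · subst h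
            exact hx
          · have h3 : n - j = n - (j - 1 + 1) := by omega
            rw [h3]
            exact hB (j - 1) (by omega)
      · have hs1 : ∑ j ∈ Finset.range (n + 1), X 2 ^ (j + 1) * (if j < n then B j * y else 0) =
            ∑ j ∈ Finset.range n, X 2 ^ (j + 1) * (B j * y) := by
          rw [Finset.sum_range_succ, if_neg (lt_irrefl n), mul_zero, add_zero]
          exact Finset.sum_congr rfl fun j hj => by rw [if_pos (Finset.mem_range.1 hj)]
        have hs2 : ∑ j ∈ Finset.range (n + 1), X 2 ^ (j + 1) *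
            ((α * ε) • (if j = 0 then x else B (j - 1)) : S3) =
            (α * ε) • (X 2 * (x + ∑ j ∈ Finset.range n, X 2 ^ (j + 1) * B j)) := by
          rw [Finset.sum_range_succ']
          simp only [Nat.add_eq_zero_iff, one_ne_zero, and_false, if_false, if_true,
            Nat.add_sub_cancel, mul_smul_comm, zero_add, pow_one]
          rw [← Finset.smul_sum, ← smul_add, mul_add, Finset.mul_sum, add_comm]
          congr 2
          exact Finset.sum_congr rfl fun j _ => by ring
        simp only [mul_add, Finset.sum_add_distrib]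
        rw [hs1, hs2, map_mul, hB', hy', add_mul, mul_add, mul_add, Finset.sum_mul]
        simp only [mul_smul_comm, mul_add, smul_add]
        have hs3 : ∑ i ∈ Finset.range n, X 2 ^ (i + 1) * B i * y =
            ∑ i ∈ Finset.range n, (X 2 : S3) ^ (i + 1) * (B i * y) :=
          Finset.sum_congr rfl fun j _ => mul_assoc _ _ _
        rw [hs3, mul_comm x (X 2), mul_comm (∑ i ∈ Finset.range n, (X 2 : S3) ^ (i + 1) * B i) (X 2)]
        abel
    | add x _ y _ hx hy =>
      obtain ⟨B, hB, hB'⟩ := hx
      obtain ⟨B₂, hB₂, hB₂'⟩ := hy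
      refine ⟨fun j => B j + B₂ j, fun j hj => Submodule.add_mem _ (hB j hj) (hB₂ j hj), ?_⟩
      rw [map_add, hB', hB₂']
      simp only [mul_add, Finset.sum_add_distrib]
      abel

/-- **R4 (a)** -/
theorem curry_inv {m b k : ℕ} (hk : k ≤ b) (F : Fm (m + 1)) (hI : Inv b F) (hT : Top b k F)
    {A : S3} (hA : A ∈ U2 ^ (b - k)) : Inv b (F.curryLeft (X 2 ^ k * A)) := by
  intro ε P hP
  have hP' : Dg b (fun i => sh ε (P i)) := fun i => sh_mem ε (hP i)
  obtain ⟨B, hB, hB'⟩ := sh_expand ε (b - k) A hA
  have h1 := hI ε (Fin.cons (X 2 ^ k * A) P) (by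
    intro i
    refine Fin.cases ?_ (fun j => ?_) i
    · simpa using zA_mem hk hA
    · simpa using hP j)
  have h2 : (fun i : Fin (m + 1) => sh ε ((Fin.cons (X 2 ^ k * A) P : Fin (m + 1) → S3) i)) =
      Fin.cons (sh ε (X 2 ^ k * A)) (fun i => sh ε (P i)) := by
    funext i
    refine Fin.cases ?_ (fun j => ?_) i
    · simp only [Fin.cons_zero]
    · simp only [Fin.cons_succ]
  rw [h2, ← MultilinearMap.curryLeft_apply, ← MultilinearMap.curryLeft_apply] at h1
  have h3 : sh ε (X 2 ^ k * A) = X 2 ^ k * A +
      ∑ j ∈ Finset.range (b - k), X 2 ^ (k + (j + 1)) * B j := by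
    rw [map_mul, map_pow, sh_X2, hB', mul_add, Finset.mul_sum]
    congr 1
    exact Finset.sum_congr rfl fun j _ => by rw [← mul_assoc, ← pow_add]
  rw [h3, map_add, map_sum, add_apply, sum_apply] at h1
  rw [← h1]
  have h4 : ∑ j ∈ Finset.range (b - k), (F.curryLeft (X 2 ^ (k + (j + 1)) * B j))
      (fun i => sh ε (P i)) = 0 := by
    apply Finset.sum_eq_zero
    intro j hj
    have hj' := Finset.mem_range.1 hj
    refine hT (k + (j + 1)) (by omega) (by omega) (B j) ?_ _ hP'
    have h5 : b - (k + (j + 1)) = b - k - (j + 1) := by omega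
    rw [h5]
    exact hB j hj'
  rw [h4, add_zero]

end Vale.Agent.P181.T3R
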