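import Vale.Agent.P181.R2.H280.AStep
import Vale.Agent.P181.R2.H280.CurryH
import Vale.Agent.P181.R2.H280.CurryI
import Vale.Agent.P181.R2.H866.Heavy
import Vale.Agent.P181.R2.H940.Descent
import Vale.Agent.P181.R2.H240.Row3

/-!
P181, row RA: the A-step and `lemI` with all rows on main, except the special case R5, which is a
hypothesis of `astep_special`.
-/

set_option autoImplicit false

open MvPolynomial

namespace Vale.Agent.P181.T3R

open Vale.Agent.P181 Vale.Agent.P181.H536 Vale.Agent.P181.H280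

theorem lemI {r a b t : ℕ} (hb : 1 ≤ b) (hK : KK a b t) (h : r * b < 2 * t) :
    LL (r + 1) a b t :=
  lemI_of (fun hb hs hst F hI hH hQ => lemmaI hb hs hst F hI hH hQ) hb hK h

theorem astep_special
    (special : ∀ {m b t : ℕ}, 1 ≤ t → t ≤ b → ∀ F : Fm (m + 1), IsSymm F → Inv b F → Hom b t F →
      (∀ A ∈ U2 ^ (b - (t - 1)), QQ 1 b (F.curryLeft (X 2 ^ (t - 1) * A))) → ∀ {A : S3},
      A ∈ U2 ^ (b - t) → Van b (F.curryLeft (X 2 ^ t * A)))
    {r a b t : ℕ} (hr : 1 ≤ r) (hb : 1 ≤ b) (hab : 2 * a ≤ b)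
    (heavy' : ∀ k, a + 1 ≤ k + r → k ≤ b → k < t → LL r a b (t - k))
    (light' : ∀ k, k + r ≤ a → k ≤ t → LL (r + 1) a b (t - k))
    (ht : b < t ∨ (r = 1 ∧ a + 1 ≤ t)) : LL (r + 1) (a + 1) b t :=
  astep_of (fun hk F hI hT _ hA => curry_inv hk F hI hT hA)
    (fun hk hkt F hH _ hA => curry_hom hk hkt F hH hA)
    (fun hk hkt F hH _ hA => curry_zero hk hkt F hH hA)
    (fun hb hs hk hks F hQ _ hA => heavy hb hs hk hks F hQ hA)
    (fun hs hk hm F hQ hT _ hA => light hs hk hm F hQ hT hA)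
    special (fun F h => Vale.Agent.P181.R2.H940.descent F h) hr hb hab heavy' light' ht

end Vale.Agent.P181.T3R
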