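import Vale.Agent.P181.R2.H425.W14L

/-!
P181, partitions with at most `n + 3` rows, `b ≥ C a ^ (1 + ε)`: row Y7, from the rows Y6 and W10.
-/

set_option autoImplicit false

open scoped TensorProduct

namespace Vale.Agent.P181.FR

open Vale.Agent.P181 Vale.Agent.P181.H280 W11

/-- Row Y6 (for all `n` and all `ε`). -/
def Y6P : Prop := ∀ (n : ℕ) {ε : ℝ} (_hε : 0 < ε), ∃ C : ℝ, 0 < C ∧
    ∀ (a b : ℕ) (lam : Fin (n + 3) → ℕ), C * a ≤ b → C * (a : ℝ) ^ (1 + ε) ≤ lam 2 →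
    C * (a : ℝ) ^ (3 + ε) ≤ (lam 1 : ℝ) * lam 2 →
    plethMult a b (n + 3) lam ≤ plethMult b a (n + 3) lam

/-- the tail is at most `n + 1` times the third row -/
lemma tail_le_third {n : ℕ} {lam : Fin (n + 3) → ℕ}
    (h : ∀ i j : Fin (n + 3), i ≤ j → lam j ≤ lam i) :
    ∑ i : Fin (n + 1), lam i.succ.succ ≤ (n + 1) * lam 2 := by
  calc ∑ i : Fin (n + 1), lam i.succ.succ ≤ ∑ _i : Fin (n + 1), lam 2 := by
        apply Finset.sum_le_sum
        intro i _
        apply h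
        rw [Fin.le_def, Fin.val_succ, Fin.val_succ]
        have : ((2 : Fin (n + 3)) : ℕ) = 2 := by
          change 2 % (n + 3) = 2
          exact Nat.mod_eq_of_lt (by omega)
        omega
    _ = (n + 1) * lam 2 := by
        rw [Finset.sum_const, Finset.card_univ, Fintype.card_fin, smul_eq_mul]

/-- **Row Y7**, from the rows Y6 and W10. -/
theorem all_wide_of (Y6 : Y6P) (W10 : W10P) (n : ℕ) {ε : ℝ} (hε : 0 < ε) : ∃ C : ℝ, 0 < C ∧
    ∀ (a b : ℕ) (lam : Fin (n + 3) → ℕ), C * (a : ℝ) ^ (1 + ε) ≤ b →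
    C * (a : ℝ) ^ (3 * n + 4 + ε) ≤ (b : ℝ) ^ (n + 2) * (lam 1 : ℝ) ^ (n + 1) →
    plethMult a b (n + 3) lam ≤ plethMult b a (n + 3) lam := by
  classical
  have hn1 : (0 : ℝ) < (n : ℝ) + 1 := by positivity
  obtain ⟨δ, hδ⟩ : ∃ δ : ℝ, δ = ε / (n + 1) := ⟨_, rfl⟩
  have hδ0 : 0 < δ := by rw [hδ]; positivity
  have hδ1 : δ * (n + 1) = ε := by rw [hδ]; field_simp
  have hδε : δ ≤ ε := by nlinarith [Nat.cast_nonneg (α := ℝ) n]
  obtain ⟨C6, hC6, h6⟩ := Y6 n hδ0
  obtain ⟨K, hK⟩ : ∃ K : ℝ, K = ((n : ℝ) + 2) ^ (n + 2) := ⟨_, rfl⟩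
  have hK0 : 0 < K := by rw [hK]; positivity
  refine ⟨C6 + 4 * K + 4 * ((n + 1) * C6) + 4 * K * (4 * ((n + 1) * C6)) ^ (n + 1),
    by positivity, fun a b lam hab hrow => ?_⟩
  obtain ⟨C, hC⟩ : ∃ C : ℝ, C = C6 + 4 * K + 4 * ((n + 1) * C6) +
    4 * K * (4 * ((n + 1) * C6)) ^ (n + 1) := ⟨_, rfl⟩
  rw [← hC] at hab hrow
  have hD0 : 0 ≤ 4 * ((n + 1) * C6) := by positivity
  have hE0 : 0 ≤ 4 * K * (4 * ((n + 1) * C6)) ^ (n + 1) := by positivity
  have c1 : C6 ≤ C := by rw [hC]; linarith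
  have c2 : 4 * K ≤ C := by rw [hC]; linarith
  have c3 : 4 * ((n + 1) * C6) ≤ C := by rw [hC]; linarith
  have c4 : 4 * K * (4 * ((n + 1) * C6)) ^ (n + 1) ≤ C := by rw [hC]; linarith
  have hC0 : 0 < C := hC6.trans_le c1
  by_cases hquad : (a - 1) ^ 2 ≤ b
  · exact foulkes_quadratic hquad lam
  push Not at hquad
  have ha2 : 2 ≤ a := by
    by_contra h
    have : a - 1 = 0 := by omega
    rw [this] at hquad
    simp at hquad
  have ha1 : (1 : ℝ) ≤ a := by exact_mod_cast (show 1 ≤ a by omega)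
  have ha0 : (0 : ℝ) < a := by linarith
  have hlin : (a : ℝ) ≤ (a : ℝ) ^ (1 + ε) := by
    nth_rewrite 1 [← Real.rpow_one (a : ℝ)]
    exact Real.rpow_le_rpow_of_exponent_le ha1 (by linarith)
  have hCab : C * a ≤ b := (mul_le_mul_of_nonneg_left hlin hC0.le).trans hab
  have hb1 : 1 ≤ b := by
    by_contra h
    have hb0 : b = 0 := by omega
    rw [hb0, Nat.cast_zero] at hCab
    have : 0 < C * a := by positivity
    linarith
  by_cases hz : plethMult a b (n + 3) lam = 0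
  · rw [hz]
    exact Nat.zero_le _
  have hne : hwSpace lam (plethAct a b (n + 3)) ≠ ⊥ := by
    intro h
    apply hz
    rw [plethMult, h, finrank_bot]
  obtain ⟨x, hx, hx0⟩ := Submodule.exists_mem_ne_zero_of_ne_bot hne
  have hanti := W10 hx hx0
  have ht3 := tail_le_third hanti
  obtain ⟨t, ht⟩ : ∃ t, t = ∑ i : Fin (n + 1), lam i.succ.succ := ⟨_, rfl⟩
  rw [← ht] at ht3
  have ht3' : (t : ℝ) ≤ (n + 1) * lam 2 := by exact_mod_cast ht3
  by_cases hcase : C6 * (a : ℝ) ^ (1 + δ) ≤ lam 2 ∧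
      C6 * (a : ℝ) ^ (3 + δ) ≤ (lam 1 : ℝ) * lam 2
  · exact h6 a b lam ((mul_le_mul_of_nonneg_right c1 ha0.le).trans hCab) hcase.1 hcase.2
  have hnum1 : 4 * a * (n + 2) ^ (n + 2) ≤ b := by
    have h1 : (4 : ℝ) * a * ((n : ℝ) + 2) ^ (n + 2) ≤ b := by
      rw [← hK]
      calc 4 * a * K = 4 * K * a := by ring
        _ ≤ C * a := mul_le_mul_of_nonneg_right c2 ha0.le
        _ ≤ b := hCab
    exact_mod_cast h1
  have hb0 : (0 : ℝ) < b := by exact_mod_cast hb1
  have hnum2 : 4 * a * (n + 2) ^ (n + 2) * (4 * 1 * t) ^ (n + 1) ≤ b ^ (n + 2) := by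
    have h1 : (4 : ℝ) * a * ((n : ℝ) + 2) ^ (n + 2) * (4 * 1 * t) ^ (n + 1) ≤ b ^ (n + 2) := by
      rw [← hK]
      by_cases hA : C6 * (a : ℝ) ^ (1 + δ) ≤ lam 2
      · have hB : (lam 1 : ℝ) * lam 2 < C6 * (a : ℝ) ^ (3 + δ) := by
          by_contra h
          exact hcase ⟨hA, not_lt.1 h⟩
        have hl1 : 0 < (lam 1 : ℝ) := by
          rcases (Nat.cast_nonneg (α := ℝ) (lam 1)).lt_or_eq with h | h
          · exact h
          · exfalso
            rw [← h, zero_pow (by omega), mul_zero] at hrow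
            have : 0 < C * (a : ℝ) ^ (3 * n + 4 + ε) := by positivity
            linarith
        have hl2 : (t : ℝ) * lam 1 ≤ (n + 1) * C6 * (a : ℝ) ^ (3 + δ) := by
          calc (t : ℝ) * lam 1 ≤ (n + 1) * lam 2 * lam 1 :=
                mul_le_mul_of_nonneg_right ht3' hl1.le
            _ = (n + 1) * (lam 1 * lam 2) := by ring
            _ ≤ (n + 1) * (C6 * (a : ℝ) ^ (3 + δ)) := mul_le_mul_of_nonneg_left hB.le hn1.le
            _ = (n + 1) * C6 * (a : ℝ) ^ (3 + δ) := by ring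
        have hp : (a : ℝ) * ((a : ℝ) ^ (3 + δ)) ^ (n + 1) = (a : ℝ) ^ (3 * n + 4 + ε) := by
          rw [← Real.rpow_natCast, ← Real.rpow_mul ha0.le]
          nth_rewrite 1 [← Real.rpow_one (a : ℝ)]
          rw [← Real.rpow_add ha0]
          congr 1
          push_cast
          rw [← hδ1]
          ring
        have hlp : 0 < (lam 1 : ℝ) ^ (n + 1) := by positivity
        refine le_of_mul_le_mul_right ?_ hlp
        calc 4 * a * K * (4 * 1 * t) ^ (n + 1) * (lam 1 : ℝ) ^ (n + 1)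
            = 4 * a * K * 4 ^ (n + 1) * (t * lam 1) ^ (n + 1) := by
              rw [mul_pow (t : ℝ), mul_pow (4 * 1 : ℝ)]
              ring
          _ ≤ 4 * a * K * 4 ^ (n + 1) * ((n + 1) * C6 * (a : ℝ) ^ (3 + δ)) ^ (n + 1) := by
              apply mul_le_mul_of_nonneg_left _ (by positivity)
              exact pow_le_pow_left₀ (by positivity) hl2 _
          _ = 4 * K * (4 * ((n + 1) * C6)) ^ (n + 1) * (a * ((a : ℝ) ^ (3 + δ)) ^ (n + 1)) := by
              rw [mul_pow ((n + 1) * C6 : ℝ), mul_pow (4 : ℝ)]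
              ring
          _ = 4 * K * (4 * ((n + 1) * C6)) ^ (n + 1) * (a : ℝ) ^ (3 * n + 4 + ε) := by rw [hp]
          _ ≤ C * (a : ℝ) ^ (3 * n + 4 + ε) := mul_le_mul_of_nonneg_right c4 (by positivity)
          _ ≤ (b : ℝ) ^ (n + 2) * (lam 1 : ℝ) ^ (n + 1) := hrow
      · push Not at hA
        have h2 : 4 * 1 * (t : ℝ) ≤ b := by
          calc 4 * 1 * (t : ℝ) ≤ 4 * ((n + 1) * lam 2) := by linarith
            _ ≤ 4 * ((n + 1) * (C6 * (a : ℝ) ^ (1 + δ))) := by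
              apply mul_le_mul_of_nonneg_left _ (by norm_num)
              exact mul_le_mul_of_nonneg_left hA.le hn1.le
            _ = 4 * ((n + 1) * C6) * (a : ℝ) ^ (1 + δ) := by ring
            _ ≤ C * (a : ℝ) ^ (1 + ε) := by
              apply mul_le_mul c3 _ (by positivity) hC0.le
              exact Real.rpow_le_rpow_of_exponent_le ha1 (by linarith)
            _ ≤ b := hab
        calc 4 * a * K * (4 * 1 * t) ^ (n + 1) ≤ b * b ^ (n + 1) := by
              apply mul_le_mul _ (pow_le_pow_left₀ (by positivity) h2 _) (by positivity) hb0.le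
              calc 4 * a * K = 4 * K * a := by ring
                _ ≤ C * a := mul_le_mul_of_nonneg_right c2 ha0.le
                _ ≤ b := hCab
          _ = (b : ℝ) ^ (n + 2) := by rw [pow_succ' (b : ℝ) (n + 1)]
    exact_mod_cast h1
  have hnum := tail_numbers_log (n := n) (a := a) (b := b) (t := t) (G := t) (T := 1) hb1
    (by omega) hnum1 hnum2
  rw [ht] at hnum
  exact TN.plethMult_of_KK (n := n + 1) lam
    (TN.KK_all (N := a - 1) (by omega) (by omega) hnum)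

end Vale.Agent.P181.FR
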