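import Vale.Agent.P181.R2.H280.AllWide

/-!
P181, partitions with at most `n + 3` rows, `b ≥ C a (log b) ^ 2`: row Y7L, from the rows Y6L and
W10.
-/

set_option autoImplicit false

open scoped TensorProduct

namespace Vale.Agent.P181.FR

open Vale.Agent.P181 Vale.Agent.P181.H280 W11

/-- Row Y6L (for all `n`). -/
def Y6LP : Prop := ∀ n : ℕ, ∃ C : ℕ, ∀ (a b L : ℕ) (lam : Fin (n + 3) → ℕ),
    1 ≤ L → b + 1 ≤ 2 ^ L → C * L ≤ a → C * (a * L) ≤ b → C * (a * L ^ 2) ≤ lam 2 →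
    C * (a * L) ^ 3 ≤ lam 1 * lam 2 →
    plethMult a b (n + 3) lam ≤ plethMult b a (n + 3) lam

/-- **Row Y7L**, from the rows Y6L and W10. -/
theorem all_wide_log_of (Y6L : Y6LP) (W10 : W10P) (n : ℕ) : ∃ C : ℕ,
    ∀ (a b L : ℕ) (lam : Fin (n + 3) → ℕ), 1 ≤ L → b + 1 ≤ 2 ^ L → C * (a * L ^ 2) ≤ b →
    C * (a ^ (3 * n + 4) * L ^ (3 * n + 3)) ≤ b ^ (n + 2) * lam 1 ^ (n + 1) →
    plethMult a b (n + 3) lam ≤ plethMult b a (n + 3) lam := by
  classical
  obtain ⟨C6, h6⟩ := Y6L n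
  obtain ⟨K, hK⟩ : ∃ K : ℕ, K = (n + 2) ^ (n + 2) := ⟨_, rfl⟩
  have hK0 : 0 < K := by rw [hK]; positivity
  refine ⟨C6 + C6 ^ 2 + 4 * K + 4 * ((n + 1) * C6) + 4 * K * (4 * ((n + 1) * C6)) ^ (n + 1) + 1,
    fun a b L lam hL1 hL hab hrow => ?_⟩
  obtain ⟨C, hC⟩ : ∃ C : ℕ, C = C6 + C6 ^ 2 + 4 * K + 4 * ((n + 1) * C6) +
    4 * K * (4 * ((n + 1) * C6)) ^ (n + 1) + 1 := ⟨_, rfl⟩
  rw [← hC] at hab hrow
  have c1 : C6 ≤ C := by rw [hC]; omega
  have c2 : 4 * K ≤ C := by rw [hC]; omega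
  have c3 : 4 * ((n + 1) * C6) ≤ C := by rw [hC]; omega
  have c4 : 4 * K * (4 * ((n + 1) * C6)) ^ (n + 1) ≤ C := by rw [hC]; omega
  have c5 : C6 ^ 2 ≤ C := by rw [hC]; omega
  have hC0 : 0 < C := by omega
  by_cases hquad : (a - 1) ^ 2 ≤ b
  · exact foulkes_quadratic hquad lam
  push Not at hquad
  have ha2 : 2 ≤ a := by
    by_contra h
    have : a - 1 = 0 := by omega
    rw [this] at hquad
    simp at hquad
  have hba : b < a ^ 2 := by
    have : (a - 1) ^ 2 ≤ a ^ 2 := Nat.pow_le_pow_left (by omega) 2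
    omega
  have ha1 : 1 ≤ a := by omega
  have hL2 : L ≤ L ^ 2 := Nat.le_self_pow (by norm_num) L
  have hL0 : 1 ≤ L ^ 2 := by omega
  have haL : a ≤ a * L ^ 2 := Nat.le_mul_of_pos_right _ hL0
  have hb1 : 1 ≤ b := by
    have : 0 < C * (a * L ^ 2) := by positivity
    omega
  have hCL : C6 * L ≤ a := by
    by_contra h
    push Not at h
    have h1 : a ^ 2 ≤ (C6 * L) ^ 2 := Nat.pow_le_pow_left h.le 2
    have h2 : a * a ^ 2 ≤ b := by
      calc a * a ^ 2 ≤ a * (C6 * L) ^ 2 := Nat.mul_le_mul_left _ h1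
        _ = C6 ^ 2 * (a * L ^ 2) := by ring
        _ ≤ C * (a * L ^ 2) := Nat.mul_le_mul_right _ c5
        _ ≤ b := hab
    have h3 : a ^ 2 ≤ a * a ^ 2 := Nat.le_mul_of_pos_left _ ha1
    omega
  by_cases hz : plethMult a b (n + 3) lam = 0
  · rw [hz]
    exact Nat.zero_le _
  have hne : hwSpace lam (plethAct a b (n + 3)) ≠ ⊥ := by
    intro h
    apply hz
    rw [plethMult, h, finrank_bot]
  obtain ⟨x, hx, hx0⟩ := Submodule.exists_mem_ne_zero_of_ne_bot hne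
  have hanti := W10 hx hx0
  have ht3 := tail_le_third hanti
  obtain ⟨t, ht⟩ : ∃ t, t = ∑ i : Fin (n + 1), lam i.succ.succ := ⟨_, rfl⟩
  rw [← ht] at ht3
  by_cases hcase : C6 * (a * L ^ 2) ≤ lam 2 ∧ C6 * (a * L) ^ 3 ≤ lam 1 * lam 2
  · refine h6 a b L lam hL1 hL hCL ?_ hcase.1 hcase.2
    calc C6 * (a * L) ≤ C * (a * L ^ 2) :=
          Nat.mul_le_mul c1 (Nat.mul_le_mul_left _ hL2)
      _ ≤ b := hab
  have hnum1 : 4 * a * (n + 2) ^ (n + 2) ≤ b := by
    rw [← hK]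
    calc 4 * a * K = 4 * K * a := by ring
      _ ≤ C * (a * L ^ 2) := Nat.mul_le_mul c2 haL
      _ ≤ b := hab
  have hnum2 : 4 * a * (n + 2) ^ (n + 2) * (4 * 1 * t) ^ (n + 1) ≤ b ^ (n + 2) := by
    by_cases hA : C6 * (a * L ^ 2) ≤ lam 2
    · have hB : lam 1 * lam 2 < C6 * (a * L) ^ 3 := by
        by_contra h
        exact hcase ⟨hA, not_lt.1 h⟩
      have hl1 : 0 < lam 1 := by
        rcases Nat.eq_zero_or_pos (lam 1) with h | h
        · exfalso
          rw [h, zero_pow (by omega), mul_zero] at hrow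
          have : 0 < C * (a ^ (3 * n + 4) * L ^ (3 * n + 3)) := by positivity
          omega
        · exact h
      have hl2 : t * lam 1 ≤ (n + 1) * C6 * (a * L) ^ 3 := by
        calc t * lam 1 ≤ (n + 1) * lam 2 * lam 1 := Nat.mul_le_mul_right _ ht3
          _ = (n + 1) * (lam 1 * lam 2) := by ring
          _ ≤ (n + 1) * (C6 * (a * L) ^ 3) := Nat.mul_le_mul_left _ hB.le
          _ = (n + 1) * C6 * (a * L) ^ 3 := by ring
      have hlp : 0 < lam 1 ^ (n + 1) := by positivity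
      refine Nat.le_of_mul_le_mul_right ?_ hlp
      rw [← hK]
      calc 4 * a * K * (4 * 1 * t) ^ (n + 1) * lam 1 ^ (n + 1)
          = 4 * a * K * 4 ^ (n + 1) * (t * lam 1) ^ (n + 1) := by
            rw [mul_pow t, mul_pow (4 * 1)]
            ring
        _ ≤ 4 * a * K * 4 ^ (n + 1) * ((n + 1) * C6 * (a * L) ^ 3) ^ (n + 1) :=
            Nat.mul_le_mul_left _ (Nat.pow_le_pow_left hl2 _)
        _ = 4 * K * (4 * ((n + 1) * C6)) ^ (n + 1) * (a ^ (3 * n + 4) * L ^ (3 * n + 3)) := by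
            have e1 : ((a * L) ^ 3) ^ (n + 1) = a ^ (3 * n + 3) * L ^ (3 * n + 3) := by
              rw [← pow_mul, ← mul_pow]
              congr 1
            have e2 : a ^ (3 * n + 4) = a * a ^ (3 * n + 3) := by rw [← pow_succ']
            rw [mul_pow ((n + 1) * C6), mul_pow 4, e1, e2]
            ring
        _ ≤ C * (a ^ (3 * n + 4) * L ^ (3 * n + 3)) := Nat.mul_le_mul_right _ c4
        _ ≤ b ^ (n + 2) * lam 1 ^ (n + 1) := hrow
    · push Not at hA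
      have h2 : 4 * 1 * t ≤ b := by
        calc 4 * 1 * t ≤ 4 * ((n + 1) * lam 2) := by omega
          _ ≤ 4 * ((n + 1) * (C6 * (a * L ^ 2))) :=
            Nat.mul_le_mul_left _ (Nat.mul_le_mul_left _ hA.le)
          _ = 4 * ((n + 1) * C6) * (a * L ^ 2) := by ring
          _ ≤ C * (a * L ^ 2) := Nat.mul_le_mul_right _ c3
          _ ≤ b := hab
      calc 4 * a * (n + 2) ^ (n + 2) * (4 * 1 * t) ^ (n + 1) ≤ b * b ^ (n + 1) :=
            Nat.mul_le_mul hnum1 (Nat.pow_le_pow_left h2 _)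
        _ = b ^ (n + 2) := by rw [pow_succ' b (n + 1)]
  have hnum := tail_numbers_log (n := n) (a := a) (b := b) (t := t) (G := t) (T := 1) hb1
    (by omega) hnum1 hnum2
  rw [ht] at hnum
  exact TN.plethMult_of_KK (n := n + 1) lam
    (TN.KK_all (N := a - 1) (by omega) (by omega) hnum)

end Vale.Agent.P181.FR
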