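import Mathlib

/-!
# P181: descent along coinciding variables (188's trick)

A symmetric polynomial in `t` variables whose restrictions to `w^(k), U_{k+1}, .., U_t` have degree
at most `a - 1` in `w`, and which vanishes when `a - 1` variables coincide, is zero if
`a ≤ 2 (t - a + 2)`.
-/

set_option autoImplicit false

open MvPolynomial Finset

namespace Vale.Agent.P181.R2.H280

variable {K : Type*} [Field K] {t : ℕ}

/-- The point with the first `k` coordinates replaced by `w`. -/
def pv (k : ℕ) (w : K) (U : Fin t → K) (i : Fin t) : K := if i.val < k then w else U i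

/-- The restriction to `w^(k), U_{k+1}, .., U_t`, as a polynomial in `w`. -/
noncomputable def spec (k : ℕ) (U : Fin t → K) : MvPolynomial (Fin t) K →ₐ[K] Polynomial K :=
  aeval fun i => if i.val < k then Polynomial.X else Polynomial.C (U i)

lemma eval_spec (k : ℕ) (U : Fin t → K) (w : K) (G : MvPolynomial (Fin t) K) :
    (spec k U G).eval w = eval (pv k w U) G := by
  unfold spec
  induction G using MvPolynomial.induction_on with
  | C c => simp
  | add p q hp hq => simp [hp, hq]
  | mul_X p i hp =>
    rw [map_mul, Polynomial.eval_mul, hp, map_mul, aeval_X, eval_X]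
    congr 1
    unfold pv
    split_ifs <;> simp

lemma derivative_spec (k : ℕ) (U : Fin t → K) (G : MvPolynomial (Fin t) K) :
    Polynomial.derivative (spec k U G) =
      ∑ i : Fin t, if i.val < k then spec k U (pderiv i G) else 0 := by
  have hX : ∀ j : Fin t, spec k U (X j) =
      if j.val < k then Polynomial.X else Polynomial.C (U j) := fun j => by
    unfold spec
    rw [aeval_X]
  induction G using MvPolynomial.induction_on with
  | C c => simp [spec]
  | add p q hp hq =>
    rw [map_add, Polynomial.derivative_add, hp, hq, ← sum_add_distrib]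
    refine sum_congr rfl fun i _ => ?_
    split_ifs <;> simp
  | mul_X p j hp =>
    rw [map_mul, Polynomial.derivative_mul, hp, sum_mul]
    have h1 : ∀ i : Fin t, (if i.val < k then spec k U (pderiv i (p * X j)) else 0) =
        (if i.val < k then spec k U (pderiv i p) else 0) * spec k U (X j) +
        (if i = j then (if j.val < k then spec k U p else 0) else 0) := by
      intro i
      rw [Derivation.leibniz, smul_eq_mul, smul_eq_mul]
      by_cases hi : i.val < k
      · rw [if_pos hi, if_pos hi, map_add, map_mul, map_mul]
        by_cases h : i = j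
        · subst h
          rw [if_pos rfl, if_pos hi, pderiv_X_self, map_one]
          ring
        · rw [if_neg h, pderiv_X_of_ne (Ne.symm h), map_zero]
          ring
      · rw [if_neg hi, if_neg hi, zero_mul, zero_add]
        by_cases h : i = j
        · subst h
          rw [if_pos rfl, if_neg hi]
        · rw [if_neg h]
    rw [sum_congr rfl fun i _ => h1 i, sum_add_distrib]
    congr 1
    rw [sum_ite_eq' univ j, hX]
    simp only [mem_univ, if_true]
    split_ifs with h2
    · simp
    · simp

lemma eval_perm {G : MvPolynomial (Fin t) K} (hs : G.IsSymmetric) (σ : Equiv.Perm (Fin t))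
    (v : Fin t → K) : eval (v ∘ σ) G = eval v G := by
  rw [← eval_rename, hs σ]

lemma eval_pderiv_perm {G : MvPolynomial (Fin t) K} (hs : G.IsSymmetric)
    (σ : Equiv.Perm (Fin t)) (v : Fin t → K) (i : Fin t) :
    eval (v ∘ σ) (pderiv i G) = eval v (pderiv (σ i) G) := by
  rw [← eval_rename, ← pderiv_rename σ.injective, hs σ]

/-- If two coordinates of the point agree, the two partial derivatives agree. -/
lemma eval_pderiv_eq {G : MvPolynomial (Fin t) K} (hs : G.IsSymmetric) (v : Fin t → K)
    {i j : Fin t} (h : v i = v j) : eval v (pderiv i G) = eval v (pderiv j G) := by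
  have h1 : v ∘ (Equiv.swap i j) = v := by
    funext x
    simp only [Function.comp_apply]
    by_cases hx : x = i
    · subst hx; simp [h]
    by_cases hx' : x = j
    · subst hx'; simp [h]
    rw [Equiv.swap_apply_of_ne_of_ne hx hx']
  have h2 := eval_pderiv_perm hs (Equiv.swap i j) v i
  rw [h1, Equiv.swap_apply_left] at h2
  exact h2

/-- One step of the descent. -/
lemma step [CharZero K] {G : MvPolynomial (Fin t) K} (hs : G.IsSymmetric) {k d : ℕ} (hd : d < 2 * (t - k))
    (h : ∀ U : Fin t → K, Function.Injective U → spec (k + 1) U G = 0)
    (U : Fin t → K) (hU : Function.Injective U) (hdeg : (spec k U G).natDegree ≤ d) :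
    spec k U G = 0 := by
  have key : ∀ l : Fin t, k ≤ l.val →
      (Polynomial.X - Polynomial.C (U l)) ^ 2 ∣ spec k U G := by
    intro l hl
    have hkt' : k < t := lt_of_le_of_lt hl l.2
    set kk : Fin t := ⟨k, hkt'⟩ with hkk
    set σ := Equiv.swap kk l with hσ
    have hU' : Function.Injective (U ∘ σ) := hU.comp σ.injective
    have h0 := h (U ∘ σ) hU'
    -- the two points
    have hv : pv (k + 1) (U l) (U ∘ σ) = pv k (U l) U ∘ σ := by
      funext i
      simp only [pv, Function.comp_apply]
      by_cases hi : i.val < k
      · have h1 : i ≠ kk := fun h' => by rw [h'] at hi; simp [hkk] at hi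
        have h2 : i ≠ l := fun h' => by rw [h'] at hi; omega
        rw [if_pos (by omega), hσ, Equiv.swap_apply_of_ne_of_ne h1 h2, if_pos hi]
      · by_cases hi2 : i = kk
        · subst hi2
          rw [if_pos (by simp [hkk]), hσ, Equiv.swap_apply_left, if_neg (by omega)]
        · have h3 : ¬ i.val < k + 1 := by
            intro h'
            apply hi2
            ext
            simp only [hkk]
            omega
          rw [if_neg h3]
          by_cases hi3 : i = l
          · subst hi3
            rw [hσ, Equiv.swap_apply_right]
            rw [if_neg (by simp [hkk])]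
          · rw [hσ, Equiv.swap_apply_of_ne_of_ne hi2 hi3, if_neg hi]
    have hroot : (spec k U G).eval (U l) = 0 := by
      rw [eval_spec, ← eval_perm hs σ, ← hv, ← eval_spec, h0, Polynomial.eval_zero]
    -- the common value of the derivatives
    have hder : ∀ i : Fin t, i.val < k → eval (pv k (U l) U) (pderiv i G) = 0 := by
      have h1 : ∀ i : Fin t, i.val < k + 1 →
          eval (pv (k + 1) (U l) (U ∘ σ)) (pderiv i G) =
            eval (pv (k + 1) (U l) (U ∘ σ)) (pderiv kk G) := by
        intro i hi
        refine eval_pderiv_eq hs _ ?_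
        simp only [pv]
        rw [if_pos hi, if_pos (by simp [hkk])]
      have h2 := congrArg (Polynomial.eval (U l)) (derivative_spec (k + 1) (U ∘ σ) G)
      rw [h0, Polynomial.derivative_zero, Polynomial.eval_zero, Polynomial.eval_finsetSum] at h2
      have h3 : ∑ i : Fin t, Polynomial.eval (U l)
          (if i.val < k + 1 then spec (k + 1) (U ∘ σ) (pderiv i G) else 0) =
          ((univ.filter fun i : Fin t => i.val < k + 1).card : K) *
            eval (pv (k + 1) (U l) (U ∘ σ)) (pderiv kk G) := by
        rw [← nsmul_eq_mul, ← sum_const, sum_filter]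
        refine sum_congr rfl fun i _ => ?_
        split_ifs with hi
        · rw [eval_spec, h1 i hi]
        · simp
      rw [h3] at h2
      have h4 : ((univ.filter fun i : Fin t => i.val < k + 1).card : K) ≠ 0 := by
        have : (univ.filter fun i : Fin t => i.val < k + 1).Nonempty :=
          ⟨kk, by simp [hkk]⟩
        exact_mod_cast this.card_pos.ne'
      have h5 : eval (pv (k + 1) (U l) (U ∘ σ)) (pderiv kk G) = 0 := by
        rcases mul_eq_zero.1 h2.symm with h6 | h6
        · exact absurd h6 h4
        · exact h6
      intro i hi
      have h6 := h1 i (by omega)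
      rw [h5, hv, eval_pderiv_perm hs] at h6
      have h7 : σ i = i := by
        refine Equiv.swap_apply_of_ne_of_ne ?_ ?_
        · intro h'; rw [h'] at hi; simp [hkk] at hi
        · intro h'; rw [h'] at hi; omega
      rwa [h7] at h6
    have hroot' : (Polynomial.derivative (spec k U G)).eval (U l) = 0 := by
      rw [derivative_spec, Polynomial.eval_finsetSum]
      refine sum_eq_zero fun i _ => ?_
      split_ifs with hi
      · rw [eval_spec, hder i hi]
      · simp
    -- double root
    obtain ⟨q, hq⟩ := Polynomial.dvd_iff_isRoot.2 hroot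
    have h8 : q.eval (U l) = 0 := by
      rw [hq] at hroot'
      simpa using hroot'
    obtain ⟨q', hq'⟩ := Polynomial.dvd_iff_isRoot.2 h8
    exact ⟨q', by rw [hq, hq']; ring⟩
  have hprod : ∏ l ∈ univ.filter (fun l : Fin t => k ≤ l.val),
      (Polynomial.X - Polynomial.C (U l)) ^ 2 ∣ spec k U G := by
    refine Finset.prod_dvd_of_coprime ?_ fun l hl => key l (by simpa using hl)
    intro l _ l' _ hne
    refine IsCoprime.pow ?_
    exact Polynomial.isCoprime_X_sub_C_of_isUnit_sub (sub_ne_zero.2 fun h' => hne (hU h')).isUnit
  have hcard : (univ.filter (fun l : Fin t => k ≤ l.val)).card = t - k := by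
    have h1 : (univ.filter (fun l : Fin t => k ≤ l.val)).card =
        (univ.filter (fun l : Fin t => ¬ l.val < k)).card := by
      congr 1
      ext l
      simp
    have h2 := Finset.card_filter_add_card_filter_not (s := (univ : Finset (Fin t)))
      (p := fun l : Fin t => l.val < k)
    have h3 : (univ.filter (fun l : Fin t => l.val < k)).card = k := by
      have := Fin.card_filter_val_lt (n := t) (m := k)
      rw [this]
      omega
    rw [card_univ, Fintype.card_fin] at h2
    rw [h1]
    omega
  by_contra hne
  have h9 := Polynomial.natDegree_le_of_dvd hprod hne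
  rw [Polynomial.natDegree_prod_of_monic _ _ fun l _ =>
    (Polynomial.monic_X_sub_C _).pow 2] at h9
  simp only [(Polynomial.monic_X_sub_C _).natDegree_pow, Polynomial.natDegree_X_sub_C] at h9
  rw [sum_const, hcard, smul_eq_mul] at h9
  omega

/-- **Descent along coinciding variables.** -/
theorem coin [CharZero K] {G : MvPolynomial (Fin t) K} (hs : G.IsSymmetric) {a : ℕ} (ha : 2 ≤ a)
    (hat : a - 1 ≤ t) (h2 : 3 * a ≤ 2 * t + 4)
    (hdeg : ∀ k, 1 ≤ k → k < a - 1 → ∀ U : Fin t → K, Function.Injective U →
      (spec k U G).natDegree ≤ a - 1)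
    (htop : ∀ U : Fin t → K, Function.Injective U → spec (a - 1) U G = 0) : G = 0 := by
  have hall : ∀ m : ℕ, ∀ k : ℕ, 1 ≤ k → k + m = a - 1 →
      ∀ U : Fin t → K, Function.Injective U → spec k U G = 0 := by
    intro m
    induction m with
    | zero =>
      intro k _ hk2 U hU
      have : k = a - 1 := by omega
      subst this
      exact htop U hU
    | succ m ih =>
      intro k hk1 hk2 U hU
      refine step hs (d := a - 1) (by omega) ?_ U hU (hdeg k hk1 (by omega) U hU)
      exact ih (k + 1) (by omega) (by omega)
  have h1 := hall (a - 2) 1 le_rfl (by omega)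
  have hval : ∀ U : Fin t → K, Function.Injective U → eval U G = 0 := by
    intro U hU
    rcases Nat.eq_zero_or_pos t with h0 | h0
    · subst h0
      omega
    · have h3 := eval_spec 1 U (U ⟨0, h0⟩) G
      rw [h1 U hU, Polynomial.eval_zero] at h3
      have h4 : pv 1 (U ⟨0, h0⟩) U = U := by
        funext i
        simp only [pv]
        split_ifs with hi
        · congr 1
          ext
          simp only
          omega
        · rfl
      rw [h4] at h3
      exact h3.symm
  have hV : (∏ i : Fin t, ∏ j ∈ univ.filter (fun j : Fin t => i < j),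
      ((X i : MvPolynomial (Fin t) K) - X j)) ≠ 0 := by
    refine prod_ne_zero_iff.2 fun i _ => prod_ne_zero_iff.2 fun j hj => ?_
    have hij : i ≠ j := ne_of_lt (by simpa using hj)
    intro h'
    exact hij (MvPolynomial.X_injective (sub_eq_zero.1 h'))
  have hprod : G * (∏ i : Fin t, ∏ j ∈ univ.filter (fun j : Fin t => i < j),
      ((X i : MvPolynomial (Fin t) K) - X j)) = 0 := by
    refine MvPolynomial.funext fun U => ?_
    rw [map_mul, map_zero]
    by_cases hU : Function.Injective U
    · rw [hval U hU, zero_mul]
    · have : ∃ i j : Fin t, i < j ∧ U i = U j := by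
        simp only [Function.Injective] at hU
        push Not at hU
        obtain ⟨i, j, h3, h4⟩ := hU
        rcases lt_or_gt_of_ne h4 with h5 | h5
        · exact ⟨i, j, h5, h3⟩
        · exact ⟨j, i, h5, h3.symm⟩
      obtain ⟨i, j, hij, hUij⟩ := this
      rw [map_prod, prod_eq_zero (mem_univ i), mul_zero]
      rw [map_prod]
      exact prod_eq_zero (by simpa using hij : j ∈ univ.filter (fun j : Fin t => i < j))
        (by simp [hUij])
  exact (mul_eq_zero.1 hprod).resolve_right hV

end Vale.Agent.P181.R2.H280
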