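import Vale.Agent.P181.R2.H280.AStep2
import Vale.Agent.P181.R2.H425.Rec2
import Vale.Agent.P181.R2.H999.TStep
import Vale.Agent.P181.R2.H780.Three

/-!
P181, three rows: the tail theorem from the special case R5 alone (every other row is on main).
-/

set_option autoImplicit false

open MvPolynomial

namespace Vale.Agent.P181.T3R

open Vale.Agent.P181 Vale.Agent.P181.H536 Vale.Agent.P181.H280

/-- the literal row R5 -/
def Special : Prop :=
  ∀ {m b t : ℕ}, 1 ≤ t → t ≤ b → ∀ F : Fm (m + 1), IsSymm F → Inv b F → Hom b t F →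
    (∀ A ∈ U2 ^ (b - (t - 1)), QQ 1 b (F.curryLeft (X 2 ^ (t - 1) * A))) → ∀ {A : S3},
    A ∈ U2 ^ (b - t) → Van b (F.curryLeft (X 2 ^ t * A))

theorem LL_mono {s a b t : ℕ} (h : LL (s + 1) a b t) : LL s a b t :=
  fun F h1 h2 h3 h4 => h F h1 h2 h3 (h4.mono (Nat.le_succ s))

theorem KK_slope_of (special : Special) {N a b t : ℕ} (hN : 1 ≤ N) (ha : a ≤ N + 1)
    (h : ∃ s, 2 ≤ s ∧ 2 * t + 5 * N * (s * (s - 1)) ≤ 2 * s * b) : KK a b t :=
  H425.rec2_slope N hN KK LL (fun _ _ _ h ha => tree hN h ha) (fun _ _ _ _ => lemI)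
    (fun _ _ _ => base0) (fun _ _ _ _ => LL_mono)
    (fun _ _ _ _ hr hb hab h1 h2 h3 => astep_special special hr hb hab h1 h2 h3)
    (fun _ _ _ _ => tstep) a b t ha h

theorem KK_final_of (special : Special) {N a b t : ℕ} (hN : 1 ≤ N) (ha : a ≤ N + 1)
    (hb : 5 * N ≤ b) (h : 10 * N * t ≤ b * (b + 5 * N)) : KK a b t :=
  H425.rec2_final N hN KK LL (fun _ _ _ h ha => tree hN h ha) (fun _ _ _ _ => lemI)
    (fun _ _ _ => base0) (fun _ _ _ _ => LL_mono)
    (fun _ _ _ _ hr hb hab h1 h2 h3 => astep_special special hr hb hab h1 h2 h3)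
    (fun _ _ _ _ => tstep) a b t ha hb h

end Vale.Agent.P181.T3R
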