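import Vale.Agent.P181.R2.H280.Glue
import Vale.Agent.P181.R2.H959.Special

/-!
P181, three rows: the tail theorem without hypotheses.
-/

set_option autoImplicit false

open MvPolynomial

namespace Vale.Agent.P181.T3R.H280

open Vale.Agent.P181 Vale.Agent.P181.H536 Vale.Agent.P181.H280

theorem special' : Special :=
  fun ht htb F hsy hI hH hQ _ hA => special ht htb F hsy hI hH hQ hA

/-- the tail theorem, one slope `s` -/
theorem KK_slope {N a b t : ℕ} (hN : 1 ≤ N) (ha : a ≤ N + 1)
    (h : ∃ s, 2 ≤ s ∧ 2 * t + 5 * N * (s * (s - 1)) ≤ 2 * s * b) : KK a b t :=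
  KK_slope_of special' hN ha h

/-- the tail theorem, closed form -/
theorem KK_final {N a b t : ℕ} (hN : 1 ≤ N) (ha : a ≤ N + 1) (hb : 5 * N ≤ b)
    (h : 10 * N * t ≤ b * (b + 5 * N)) : KK a b t :=
  KK_final_of special' hN ha hb h

end Vale.Agent.P181.T3R.H280
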