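import Mathlib.Tactic

/-!
P181, rows R6 and R7 of helper556's plan (three rows, helper298's text of 01:10): the two
inductions on the number of points, as pure statements on predicates.

* `L s a b t`: no nonzero shear invariant of `a` points of degree `b` and tail degree `t` is killed
  by `D_s`;
* `K a b t`: no nonzero shear invariant of the kernel has tail degree `t`.
-/

set_option autoImplicit false

namespace Vale.Agent.P181.R2.H280

/-- the rows R3, R4, R5 and the tree theorem; the A-steps go from `a` to `a + 1` points, `k` is the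
top exponent -/
structure Rows (L : ℕ → ℕ → ℕ → ℕ → Prop) (K : ℕ → ℕ → ℕ → Prop) : Prop where
  /-- `D_s P = 0` implies `D_{s+1} P = 0` -/
  mono : ∀ s a b t, 1 ≤ s → L (s + 1) a b t → L s a b t
  /-- all shear invariants are zero in tail degree `> a b / 2` -/
  small : ∀ s a b t, a < s → a * b < 2 * t → L s a b t
  /-- Lemma I -/
  lemI : ∀ s a b t, s * b < 2 * t → K a b t → L (s + 1) a b t
  /-- the A-step for `t > b` -/
  step : ∀ s a b t, 2 ≤ s → 2 * (a + 1) ≤ b + 2 * s → b < t →
    (∀ k, 1 ≤ k → k ≤ b → a + 2 ≤ s + k → L (s - 1) a b (t - k)) →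
    (∀ k, 1 ≤ k → k ≤ b → k + s ≤ a + 1 → L s a b (t - k)) → L s (a + 1) b t
  /-- the A-step for `s = 2`, with the special case `k = t` -/
  step2 : ∀ a b t, 2 * (a + 1) ≤ b + 4 → a + 1 ≤ t →
    (∀ k, a ≤ k → k ≤ b → k < t → L 1 a b (t - k)) →
    (∀ k, 1 ≤ k → k ≤ b → k < a → L 2 a b (t - k)) → L 2 (a + 1) b t
  /-- the tree theorem -/
  tree : ∀ a b t, t + a ≤ b + 1 → K a b t

variable {L : ℕ → ℕ → ℕ → ℕ → Prop} {K : ℕ → ℕ → ℕ → Prop}

/-- **R6** -/
theorem L_two (h : Rows L K) : ∀ a b t : ℕ, 4 * a ≤ b → b < 2 * t → L 2 a b t := by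
  intro a
  induction a with
  | zero => exact fun b t _ ht => h.small 2 0 b t (by omega) (by omega)
  | succ a ih =>
    intro b t hb ht
    by_cases h1 : t + (a + 1) ≤ b + 1
    · exact h.lemI 1 (a + 1) b t (by omega) (h.tree _ _ _ h1)
    · refine h.step2 a b t (by omega) (by omega) ?_ ?_
      · intro k hk hkb hkt
        by_cases h2 : (t - k) + a ≤ b + 1
        · exact h.lemI 0 a b (t - k) (by omega) (h.tree _ _ _ h2)
        · exact h.mono 1 a b (t - k) le_rfl (ih b (t - k) (by omega) (by omega))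
      · intro k hk hkb hka
        exact ih b (t - k) (by omega) (by omega)

/-- `L 1` from `L 2` and the tail bound -/
theorem L_one (h : Rows L K) {a b : ℕ} (hb : 4 * a ≤ b) : ∀ t : ℕ, 0 < t → L 1 a b t := by
  intro t ht
  by_cases h2 : t + a ≤ b + 1
  · exact h.lemI 0 a b t (by omega) (h.tree _ _ _ h2)
  · exact h.mono 1 a b t le_rfl (L_two h a b t hb (by omega))

/-- **R7**: `L s` for all `t > (s - 1) b / 2` when the tail bound `K` holds up to `s b / 2 + A` for
all `a ≤ A` -/
theorem L_all (h : Rows L K) {A b S : ℕ} (hA : 4 * A ≤ b) (hS : 2 ≤ S)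
    (hK : ∀ a t : ℕ, a ≤ A → 2 * t ≤ S * b + 2 * A → K a b t) :
    ∀ a : ℕ, a ≤ A → ∀ s t : ℕ, s < S → s * b < 2 * t → L (s + 1) a b t := by
  intro a
  induction a with
  | zero =>
    intro _ s t _ ht
    exact h.small (s + 1) 0 b t (by omega) (by rw [Nat.zero_mul]; exact lt_of_le_of_lt (Nat.zero_le _) ht)
  | succ a ih =>
    intro haA s t hs ht
    by_cases hsm : a + 1 < s + 1
    · refine h.small (s + 1) (a + 1) b t hsm (lt_of_le_of_lt ?_ ht)
      exact Nat.mul_le_mul_right b (by omega)
    by_cases h1 : 2 * t ≤ S * b + 2 * A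
    · exact h.lemI s (a + 1) b t ht (hK (a + 1) t haA h1)
    rcases Nat.eq_zero_or_pos s with rfl | hs0
    · exact L_one h (by omega) t (by omega)
    have hSb : s * b + b ≤ S * b := by
      calc s * b + b = (s + 1) * b := by ring
        _ ≤ S * b := Nat.mul_le_mul_right b hs
    have hSb2 : 2 * b ≤ S * b := Nat.mul_le_mul_right b hS
    have hbt : b < t := by omega
    refine h.step (s + 1) a b t (by omega) (by omega) hbt ?_ ?_
    · intro k hk hkb hka
      have h3 := ih (by omega) (s - 1) (t - k) (by omega) (by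
        have h4 : (s - 1) * b + b = s * b := by
          calc (s - 1) * b + b = (s - 1 + 1) * b := by ring
            _ = s * b := by rw [Nat.sub_add_cancel hs0]
        omega)
      rwa [Nat.sub_add_cancel hs0] at h3
    · intro k hk hkb hka
      exact ih (by omega) s (t - k) hs (by omega)

end Vale.Agent.P181.R2.H280
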