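import Vale.Agent.P181.R2.H280.NFinal
import Vale.Agent.P181.R2.H780.Three

/-!
P181: the tail theorem with one variable below the second row, in the three-row definitions.
-/

set_option autoImplicit false

open MvPolynomial

namespace Vale.Agent.P181.T3R

open Vale.Agent.P181 Vale.Agent.P181.H536 Vale.Agent.P181.H280

lemma sh_eq_sh (ε : ℂ) : (TN.sh 1 (ε • (X 2 : S3)) : S3 →ₐ[ℂ] S3) = sh ε := by
  apply MvPolynomial.algHom_ext
  intro i
  fin_cases i
  · exact (TN.sh_X0 (n := 1) (ε • (X 2 : S3))).trans (sh_X0 ε).symm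
  · exact (TN.sh_X1 (n := 1) (ε • (X 2 : S3))).trans (sh_X1 ε).symm
  · exact (shr_succ (n := 1) (ε • (X 2 : S3)) 0 0).trans (sh_X2 ε).symm

lemma ZZ_one {z : S3} (hz : z ∈ ZZ 1) : ∃ ε : ℂ, z = ε • (X 2 : S3) := by
  rw [ZZ] at hz
  induction hz using Submodule.span_induction with
  | mem x hx =>
    obtain ⟨i, rfl⟩ := hx
    fin_cases i
    exact ⟨1, (one_smul ℂ (X 2 : S3)).symm⟩
  | zero => exact ⟨0, (zero_smul ℂ (X 2 : S3)).symm⟩
  | add x y _ _ hx hy =>
    obtain ⟨α, rfl⟩ := hx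
    obtain ⟨β, rfl⟩ := hy
    exact ⟨α + β, (add_smul _ _ _).symm⟩
  | smul c x _ hx =>
    obtain ⟨α, rfl⟩ := hx
    exact ⟨c * α, (mul_smul _ _ _).symm⟩

theorem KK_of_TN {a b t : ℕ} (h : TN.KK 1 a b t) : KK a b t := by
  intro F hsy hI hH hK
  refine h F hsy ?_ ?_ hK
  · intro z hz P hP
    obtain ⟨ε, rfl⟩ := ZZ_one hz
    have h1 := hI ε P hP
    rw [← sh_eq_sh] at h1
    exact h1
  · intro c hc P hP
    have h1 := hH c hc P hP
    rw [← tau_eq_scal] at h1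
    exact h1

/-- the tail theorem for three rows, every slope -/
theorem KK_start {N a b t : ℕ} (hN : 1 ≤ N) (ha : a ≤ N + 1)
    (h : ∃ s, 1 ≤ s ∧ t + N * (s * (s + 1) - 1) ≤ s * b) : KK a b t := by
  obtain ⟨s, hs, h⟩ := h
  refine KK_of_TN (TN.KK_all hN ha ⟨s, hs, ?_⟩)
  have h1 : 2 * (s + 1).choose (1 + 1) = s * (s + 1) := by
    have h2 : (s + 1).choose (1 + 1) = (s + 1) * s / 2 := by
      rw [Nat.choose_two_right]; rfl
    rw [h2, Nat.two_mul_div_two_of_even (by rw [mul_comm]; exact Nat.even_mul_succ_self s),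
      mul_comm]
  rw [h1]
  exact h

/-- the closed form -/
theorem KK_start_final {N a b t : ℕ} (hN : 1 ≤ N) (ha : a ≤ N + 1) (hb : 2 * N ≤ b)
    (h : 4 * N * t + 2 * N * b ≤ b * b + 4 * (N * N)) : KK a b t :=
  KK_of_TN (H425.recM_final N hN (TN.KK 1) (fun _ _ _ h ha => TN.tree hN h ha) (TN.zeroN 1)
    (TN.stepN 1) a b t ha hb h)

end Vale.Agent.P181.T3R
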