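import Vale.Agent.P181.R2.H280.NCurry
import Vale.Agent.P181.R2.H940.NDescent

/-!
P181, all numbers of rows: the step in the number of slots, from the rows.
-/

set_option autoImplicit false

open MvPolynomial

namespace Vale.Agent.P181.TN

open Vale.Agent.P181 Vale.Agent.P181.H536 Vale.Agent.P181.H280

theorem stepN_of {n : ℕ}
    (mixed : ∀ {m b r s t : ℕ}, 2 ≤ s → r ≤ b → ∀ F : Fm n (m + 1), Inv b F → Hom b t F →
      ∀ {w : Sn n}, w ∈ ZZ n ^ r →
      (∀ B ∈ linS (n + 2) ^ (b - r), QQ (s - 1) b (F.curryLeft (w * B))) →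
      n * ((s - 1) * b) + r < (n + 1) * t →
      ∀ B ∈ linS (n + 2) ^ (b - r), IsK (linS (n + 2)) b (F.curryLeft (w * B)))
    (lemmaI : ∀ {a b s t : ℕ}, 1 ≤ b → 1 ≤ s → n * ((s - 1) * b) < (n + 1) * t →
      ∀ F : Fm n a, Inv b F → Hom b t F → QQ s b F → IsK (linS (n + 2)) b F)
    (heavy : ∀ {m b k s : ℕ}, 1 ≤ b → 1 ≤ s → k ≤ b → m + 1 ≤ k → ∀ F : Fm n (m + 1),
      QQ s b F → ∀ {w : Sn n}, w ∈ ZZ n ^ k →
      ∀ B ∈ linS (n + 2) ^ (b - k), QQ (s - 1) b (F.curryLeft (w * B)))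
    (light : ∀ {m b k s : ℕ}, 1 ≤ s → k < b → m < b - k + s → ∀ F : Fm n (m + 1), QQ s b F →
      Top b k F → ∀ {w : Sn n}, w ∈ ZZ n ^ k → ∀ {A : Sn n}, A ∈ U2 n ^ (b - k) →
      QQ s b (F.curryLeft (w * A)))
    (tstep : ∀ {s a b t : ℕ}, 1 ≤ s → (∀ t', t' + s ≤ t → KK n a b t') → ∀ F : Fm n a,
      IsSymm F → Inv (b + 1) F → Hom (b + 1) t F → IsK (linS (n + 2)) (b + 1) F →
      QQ s (b + 1) F)
    (s m b t : ℕ) (hs : 2 ≤ s) (hmb : m ≤ b) (h2m : 2 * m ≤ b + 1)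
    (hK1 : ∀ t', t' ≤ t → KK n m (b + 1) t') (hK2 : ∀ t', t' + s ≤ t → KK n (m + 1) b t')
    (hmt : m ≤ t) (h1 : n * ((s - 1) * (b + 1)) < (n + 1) * (t - m))
    (h2 : n * ((s - 1) * (b + 1)) + (m + 1) < (n + 1) * t) : KK n (m + 1) (b + 1) t := by
  intro F hsy hI hH hF
  have hQ := tstep (by omega : 1 ≤ s) hK2 F hsy hI hH hF
  apply descent F
  intro k hkb hT w hw A hA
  rcases lt_or_ge t k with htk | hkt
  · exact curry_zero hkb htk F hH hw hA
  have hs' : IsSymm (F.curryLeft (w * A)) := hsy.curryLeft _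
  have hI' := curry_inv hkb F hI hT hw hA
  have hH' := curry_hom hkb hkt F hH hw hA
  refine hK1 (t - k) (Nat.sub_le _ _) _ hs' hI' hH' ?_
  by_cases hkm : k ≤ m
  · have hQ' := light (by omega : 1 ≤ s) (by omega : k < b + 1) (by omega) F hQ hT hw hA
    refine lemmaI (by omega : 1 ≤ b + 1) (by omega : 1 ≤ s) (lt_of_lt_of_le h1 ?_) _ hI' hH' hQ'
    exact Nat.mul_le_mul_left _ (by omega)
  · push Not at hkm
    have hk : k = (m + 1) + (k - (m + 1)) := by omega
    rw [hk, pow_add] at hw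
    clear hs' hI' hH'
    induction hw using Submodule.mul_induction_on' with
    | mem_mul_mem w₁ hw₁ w₂ hw₂ =>
      have h3 := mixed hs (by omega : m + 1 ≤ b + 1) F hI hH hw₁
        (heavy (by omega : 1 ≤ b + 1) (by omega : 1 ≤ s) (by omega) le_rfl F hQ hw₁) h2
        (w₂ * A) (by
          have h4 : b + 1 - (m + 1) = (k - (m + 1)) + (b + 1 - k) := by omega
          rw [h4, pow_add]
          exact Submodule.mul_mem_mul (pow_le_pow_left' ZZ_le _ hw₂)
            (pow_le_pow_left' U2_le _ hA))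
      rwa [← mul_assoc] at h3
    | add x _ y _ hx hy =>
      intro M hM hML
      have h5 := hx M hM hML
      have h6 := hy M hM hML
      rw [add_mul, map_add, add_apply, h5, h6, add_zero]

theorem zeroN (n b t : ℕ) : KK n 0 b t := by
  intro F _ _ _ hK P _
  have h1 := hK (Multiset.replicate b (X 0)) (Multiset.card_replicate _ _) (by
    intro x hx
    rw [Multiset.eq_of_mem_replicate hx]
    exact X_mem_linS _)
  rw [← h1]
  congr 1
  exact Subsingleton.elim _ _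

end Vale.Agent.P181.TN
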