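import Vale.Agent.P181.R2.H280.Glue2
import Vale.Agent.P181.H421.Defs

set_option autoImplicit false

open Vale.Agent.P181 Vale.Agent.P181.H421 Vale.Agent.P181.H280

namespace Vale.Agent.P181.T3R.H280

/-- **Foulkes' conjecture for three rows, quadratic growth of the third row.** -/
theorem result_draft (a b : ℕ) (ha : 2 ≤ a) :
    ∃ Ψ : Pleth a b 3 →ₗ[ℂ] Pleth b a 3,
      (∀ v : Fin a → Fin b → (Fin 3 → ℂ), Ψ (prodRows v) = sumCols v) ∧ IsEquivariant Ψ ∧
      ∀ lam : Fin 3 → ℕ,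
        ((∃ s, 2 ≤ s ∧ 2 * lam 2 + 5 * (a - 1) * (s * (s - 1)) ≤ 2 * s * b) ∨
          (5 * (a - 1) ≤ b ∧ 10 * (a - 1) * lam 2 ≤ b * (b + 5 * (a - 1)))) →
        InjOnHW Ψ lam ∧ plethMult a b 3 lam ≤ plethMult b a 3 lam := by
  refine ⟨foulkesHowe a b (Fin 3 → ℂ), foulkesHowe_tprod a b,
    fun g x => LinearMap.congr_fun (foulkesHowe_equivariant a b (Matrix.toLin' g)) x,
    fun lam hlam => ?_⟩
  have hK : KK a b (lam 2) := by
    rcases hlam with h | ⟨h1, h2⟩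
    · exact KK_slope (N := a - 1) (by omega) (by omega) h
    · exact KK_final (N := a - 1) (by omega) (by omega) h1 h2
  exact ⟨fun x hx h0 => injOn_of_KK lam hK x hx h0, plethMult_of_KK lam hK⟩

end Vale.Agent.P181.T3R.H280
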